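import Crest.Agent.R246.P.Det

/-!
Row 246, block P: asymptotic expansions along a filter (`s → 0`, uniformly in the point).
-/

set_option autoImplicit false
set_option linter.unusedSectionVars false

open MeasureTheory Metric Filter Topology Set Module
open scoped RealInnerProductSpace ENNReal ContDiff Real

noncomputable section

namespace Crest.Agent.R246.P

variable {E : Type} [NormedAddCommGroup E] [InnerProductSpace ℝ E] [FiniteDimensional ℝ E]

open Asymptotics

variable {ι : Type} {l : Filter ι} {s : ι → ℝ}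

theorem isBigO_trc {A : ι → E →L[ℝ] E} {g : ι → ℝ} (h : A =O[l] g) : (fun i => trc (A i)) =O[l] g := by

  exact (IsBigO.of_bound (finrank ℝ E) (Eventually.of_forall fun i => C1.abs_trc_le (A i))).trans h

theorem o_smul {F : Type} [NormedAddCommGroup F] [NormedSpace ℝ F] {c g : ι → ℝ} {A : ι → F}
    (hc : c =O[l] g) (hA : A =O[l] fun _ => (1 : ℝ)) : (fun i => c i • A i) =O[l] g := by
  simpa using hc.smul hA

theorem o_mul {A B : ι → E →L[ℝ] E} {g : ι → ℝ} (hA : A =O[l] fun _ => (1 : ℝ)) (hB : B =O[l] g) :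
    (fun i => A i * B i) =O[l] g := by simpa using hA.mul hB

theorem o_mul' {A B : ι → E →L[ℝ] E} {g : ι → ℝ} (hA : A =O[l] g) (hB : B =O[l] fun _ => (1 : ℝ)) :
    (fun i => A i * B i) =O[l] g := by simpa using hA.mul hB

/-- `det_le_exp` with `B = O(s)` -/
theorem alg_det (hs : Tendsto s l (𝓝 0)) (hs0 : ∀ᶠ i in l, 0 < s i) {Y G₁ G₂ : ι → E →L[ℝ] E}
    (h1 : G₁ =O[l] fun _ => (1 : ℝ)) (h2 : G₂ =O[l] fun _ => (1 : ℝ))
    (hY : (fun i => Y i - s i • G₁ i - s i ^ 2 • G₂ i) =O[l] fun i => s i ^ 3)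
    (hsymm : ∀ᶠ i in l, ∀ v w, ⟪Y i v, w⟫ = ⟪v, Y i w⟫) (htr : ∀ᶠ i in l, trc (G₁ i) = 0) :
    ∃ K : ℝ, ∀ᶠ i in l,
      √(1 + Y i).det ≤ 1 + s i ^ 2 * (trc (G₂ i) - trc (G₁ i * G₁ i) / 2) / 2 + K * s i ^ 3 := by

  have hs1 : s =O[l] fun _ => (1 : ℝ) := hs.isBigO_one ℝ
  have hp : ∀ k : ℕ, (fun i => s i ^ (k + 1)) =O[l] fun i => s i ^ k := fun k =>
    ((isBigO_refl (fun i => s i ^ k) l).mul hs1).congr (fun i => by ring) fun i => mul_one _
  have h21 : (fun i => s i ^ 2) =O[l] s := (hp 1).congr_right fun i => pow_one _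
  have a2 : (fun i => Y i - s i • G₁ i) =O[l] fun i => s i ^ 2 :=
    ((hY.trans (hp 2)).add (o_smul (isBigO_refl _ l) h2)).congr_left fun i => by module
  have a1 : Y =O[l] s := ((a2.trans h21).add (o_smul (isBigO_refl _ l) h1)).congr_left fun i => by module
  have b1 : (fun i => trc (Y i) - s i ^ 2 * trc (G₂ i)) =O[l] fun i => s i ^ 3 := by
    refine (isBigO_trc hY).congr' (htr.mono fun i hi => ?_) EventuallyEq.rfl
    simp only [trc_sub, C1.trc_smul, hi]; ring
  have b2 : (fun i => trc (Y i * Y i) - s i ^ 2 * trc (G₁ i * G₁ i)) =O[l] fun i => s i ^ 3 := by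
    have c1 := (a2.mul a1).congr_right (g₂ := fun i => s i ^ 3) fun i => by ring
    have c2 := ((o_smul (isBigO_refl s l) h1).mul a2).congr_right (g₂ := fun i => s i ^ 3) fun i => by ring
    refine (isBigO_trc (c1.add c2)).congr_left fun i => ?_
    rw [← C1.trc_smul, ← trc_sub]
    congr 1
    simp only [sub_mul, mul_sub, smul_mul_assoc, mul_smul_comm, smul_smul]
    module
  have b3 : (fun i => trc (Y i * Y i)) =O[l] fun i => s i ^ 2 :=
    (isBigO_trc (a1.mul a1)).congr_right fun i => by ring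
  obtain ⟨K₀, hK₀, b4⟩ := b3.exists_pos
  obtain ⟨B, hB⟩ : ∃ B : ι → ℝ, B = fun i => (K₀ + 1) * s i := ⟨_, rfl⟩
  have hBs : B =O[l] s := hB ▸ (isBigO_refl s l).const_mul_left _
  obtain ⟨u, hu⟩ : ∃ u : ι → ℝ, u = fun i => (trc (Y i) - trc (Y i * Y i) / 2 + trc (Y i * Y i) * B i / 2) / 2 :=
    ⟨_, rfl⟩
  have c0 : (fun i => trc (G₂ i) - trc (G₁ i * G₁ i) / 2) =O[l] fun _ => (1 : ℝ) :=
    ((isBigO_trc h2).sub ((isBigO_trc (o_mul h1 h1)).const_mul_left (1 / 2))).congr_left fun i => by ring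
  have c1 : (fun i => u i - s i ^ 2 * (trc (G₂ i) - trc (G₁ i * G₁ i) / 2) / 2) =O[l] fun i => s i ^ 3 := by
    have c2 := (b3.mul hBs).congr_right (g₂ := fun i => s i ^ 3) fun i => by ring
    refine (((b1.const_mul_left (1 / 2)).sub (b2.const_mul_left (1 / 4))).add
      (c2.const_mul_left (1 / 4))).congr_left fun i => ?_
    rw [hu]; ring
  have c2 : u =O[l] fun i => s i ^ 2 :=
    ((c1.trans (hp 2)).add ((o_smul (isBigO_refl (fun i => s i ^ 2) l) c0).const_mul_left (1 / 2))).congr_left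
      fun i => by simp only [smul_eq_mul]; ring
  have c3 : (fun i => u i ^ 2) =O[l] fun i => s i ^ 3 :=
    ((c2.mul (c2.trans h21)).congr (fun i => by ring) fun i => by ring)
  obtain ⟨K, hK⟩ := (c1.add c3).bound
  have hu0 : Tendsto u l (𝓝 0) := (c2.trans h21).trans_tendsto hs
  have hY0 : Tendsto Y l (𝓝 0) := a1.trans_tendsto hs
  refine ⟨K, ?_⟩
  filter_upwards [hK, hs0, hsymm, b4.bound, hu0.eventually (closedBall_mem_nhds 0 one_pos),
    hY0.eventually (closedBall_mem_nhds 0 one_pos)] with i e1 e2 e3 e4 e5 e6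
  have hB0 : 0 ≤ B i := by rw [hB]; positivity
  have hT0 := trc_sq_nonneg e3
  rw [Real.norm_of_nonneg hT0, Real.norm_of_nonneg (sq_nonneg _)] at e4
  rw [Real.norm_of_nonneg (pow_pos e2 3).le, Real.norm_eq_abs] at e1
  rw [dist_zero_right] at e5 e6
  obtain ⟨-, d2⟩ := det_le_exp e3 (fun v => by
    have f1 := abs_real_inner_le_norm v (Y i v)
    have f2 := (Y i).le_opNorm v
    rw [inner_add_right, real_inner_self_eq_norm_sq]
    nlinarith [neg_abs_le ⟪v, Y i v⟫, norm_nonneg v, mul_le_mul_of_nonneg_right e6 (norm_nonneg v)]) hB0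
    (by rw [hB]; nlinarith [sq_nonneg (s i), mul_nonneg hK₀.le (sq_nonneg (s i)),
      mul_nonneg (mul_nonneg hK₀.le hK₀.le) (sq_nonneg (s i))])
  have d3 : √(1 + Y i).det ≤ Real.exp (u i) := by
    refine Real.sqrt_le_iff.2 ⟨(Real.exp_pos _).le, d2.trans ?_⟩
    rw [← Real.exp_nat_mul, Real.exp_le_exp, hu]
    have : trc (Y i * Y i) * (1 - B i) / 2 ≤ trc (Y i * Y i) / (2 * (1 + B i)) := by
      rw [div_le_div_iff₀ two_pos (by positivity)]
      nlinarith [mul_nonneg hT0 (sq_nonneg (B i))]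
    push_cast
    linarith
  have d4 := Real.abs_exp_sub_one_sub_id_le e5
  linarith [le_abs_self (Real.exp (u i) - 1 - u i),
    le_abs_self (u i - s i ^ 2 * (trc (G₂ i) - trc (G₁ i * G₁ i) / 2) / 2 + u i ^ 2)]

/-- `Γ = (1+Y)⁻¹ = 1 - Y + O(s²)` -/
theorem alg_II (hs : Tendsto s l (𝓝 0)) {Y H β II : ι → E →L[ℝ] E} {f μ ρ t : ι → ℝ}
    (hH : H =O[l] fun _ => (1 : ℝ)) (hβ : β =O[l] fun _ => (1 : ℝ)) (hf : f =O[l] fun _ => (1 : ℝ))
    (hμ : (fun i => μ i - 1) =O[l] s) (hρ : (fun i => ρ i - 1) =O[l] s)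
    (hY : (fun i => Y i - (2 * s i * f i) • H i) =O[l] fun i => s i ^ 2)
    (ht : (fun i => trc (β i) - t i) =O[l] s) (htr : ∀ᶠ i in l, trc (H i) = 0)
    (hII : ∀ᶠ i in l, II i = ρ i • (s i • β i - μ i • H i)) :
    (∀ᶠ i in l, (1 + Y i) * Ring.inverse (1 + Y i) = 1) ∧
    (fun i => trc (Ring.inverse (1 + Y i) * II i) - s i * (t i + 2 * f i * trc (H i * H i))) =O[l]
      (fun i => s i ^ 2) ∧
    (fun i => trc (Ring.inverse (1 + Y i) * II i * (Ring.inverse (1 + Y i) * II i)) - trc (H i * H i)) =O[l]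
      s := by

  have hs1 : s =O[l] fun _ => (1 : ℝ) := hs.isBigO_one ℝ
  have hss : (fun i => s i * s i) =O[l] fun i => s i ^ 2 := (isBigO_refl _ l).congr_left fun i => sq _
  have h21 : (fun i => s i ^ 2) =O[l] s :=
    ((isBigO_refl s l).mul hs1).congr (fun i => by ring) fun i => mul_one _
  have hsf : (fun i => 2 * s i * f i) =O[l] s :=
    ((o_smul (isBigO_refl s l) hf).const_mul_left 2).congr_left fun i => by simp only [smul_eq_mul]; ring
  have a1 : Y =O[l] s := ((hY.trans h21).add (o_smul hsf hH)).congr_left fun i => by module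
  have hY0 : Tendsto Y l (𝓝 0) := a1.trans_tendsto hs
  have hsm : ∀ᶠ i in l, ‖Y i‖ ≤ 1 / 2 := (hY0.eventually (closedBall_mem_nhds 0 one_half_pos)).mono
    fun i hi => mem_closedBall_zero_iff.1 hi
  have e1 : ∀ᶠ i in l, (1 + Y i) * Ring.inverse (1 + Y i) = 1 := hsm.mono fun i hi => by
    refine Ring.mul_inverse_cancel _ ?_
    have := (Units.oneSub (-Y i) (by rw [norm_neg]; linarith)).isUnit
    rwa [Units.val_oneSub, sub_neg_eq_add] at this
  obtain ⟨Γ, hΓ⟩ : ∃ Γ : ι → E →L[ℝ] E, Γ = fun i => Ring.inverse (1 + Y i) := ⟨_, rfl⟩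
  have hΓ' : ∀ i, Ring.inverse (1 + Y i) = Γ i := fun i => by rw [hΓ]
  simp only [hΓ'] at e1 ⊢
  have e2 : ∀ᶠ i in l, Γ i = 1 - Y i * Γ i := e1.mono fun i hi => by
    rw [← hi, add_mul, one_mul, add_sub_cancel_right]
  have g0 : Γ =O[l] fun _ => (1 : ℝ) := by
    refine IsBigO.of_bound 2 ?_
    filter_upwards [e2, hsm] with i h1 h2
    have h3 : ‖Γ i‖ ≤ ‖(1 : E →L[ℝ] E)‖ + ‖Y i * Γ i‖ := by
      conv_lhs => rw [h1]
      exact norm_sub_le _ _
    have h4 := norm_mul_le (Y i) (Γ i)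
    have h5 : ‖(1 : E →L[ℝ] E)‖ ≤ 1 := ContinuousLinearMap.norm_id_le
    rw [norm_one]
    nlinarith [norm_nonneg (Γ i)]
  have g1 : (fun i => Γ i - 1) =O[l] s :=
    (o_mul' a1 g0).neg_left.congr' (e2.mono fun i hi => by
      simp only
      conv_rhs => rw [hi]
      abel) EventuallyEq.rfl
  have g2 : (fun i => Γ i - 1 + Y i) =O[l] fun i => s i ^ 2 :=
    ((a1.mul g1).trans hss).neg_left.congr' (e2.mono fun i hi => by
      simp only [mul_sub, mul_one]
      conv_rhs => rw [hi]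
      abel) EventuallyEq.rfl
  have hρ0 : ρ =O[l] fun _ => (1 : ℝ) :=
    ((hρ.trans hs1).add (isBigO_refl _ l)).congr_left fun i => by ring
  have hμ0 : μ =O[l] fun _ => (1 : ℝ) :=
    ((hμ.trans hs1).add (isBigO_refl _ l)).congr_left fun i => by ring
  have hw : (fun i => ρ i * μ i - 1) =O[l] s :=
    ((o_smul hρ hμ0).add hμ).congr_left fun i => by simp only [smul_eq_mul]; ring
  have hT : (fun i => trc (H i * H i)) =O[l] fun _ => (1 : ℝ) := isBigO_trc (o_mul hH hH)
  have p1 : (fun i => ρ i * trc (Γ i * β i) - t i) =O[l] s :=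
    (((o_smul hρ (isBigO_trc (o_mul g0 hβ))).add (isBigO_trc (o_mul' g1 hβ))).add ht).congr_left fun i => by
      simp only [smul_eq_mul, sub_mul, one_mul, trc_sub]; ring
  have p2 : (fun i => trc (Γ i * H i) + 2 * s i * f i * trc (H i * H i)) =O[l] fun i => s i ^ 2 :=
    ((isBigO_trc (o_mul' g2 hH)).sub (isBigO_trc (o_mul' hY hH))).congr' (htr.mono fun i hi => by
      simp only [sub_mul, add_mul, one_mul, trc_sub, C1.trc_add, smul_mul_assoc, C1.trc_smul, hi]; ring)
      EventuallyEq.rfl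
  have p3 : (fun i => trc (Γ i * H i)) =O[l] s :=
    ((p2.trans h21).sub (o_smul hsf hT)).congr_left fun i => by simp only [smul_eq_mul]; ring
  have q1 : (fun i => Γ i * II i + H i) =O[l] s := by
    refine (((o_smul (o_smul (isBigO_refl s l) hρ0) (o_mul g0 hβ)).sub (o_smul hw (o_mul g0 hH))).sub
      (o_mul' g1 hH)).congr' (hII.mono fun i hi => ?_) EventuallyEq.rfl
    simp only [hi, mul_sub, sub_mul, one_mul, mul_smul_comm, smul_eq_mul]
    module
  have q0 : (fun i => Γ i * II i) =O[l] fun _ => (1 : ℝ) :=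
    ((q1.trans hs1).sub hH).congr_left fun i => by abel
  refine ⟨e1, ?_, ?_⟩
  · refine (((((isBigO_refl s l).mul p1).trans hss).sub ((hw.mul p3).trans hss)).sub p2).congr'
      (hII.mono fun i hi => ?_) EventuallyEq.rfl
    simp only [hi, mul_sub (Γ i), mul_smul_comm, trc_sub, C1.trc_smul]
    ring
  · refine (isBigO_trc ((o_mul' q1 q0).sub (o_mul hH q1))).congr_left fun i => ?_
    rw [← trc_sub]
    congr 1
    noncomm_ring

/-- first-order part of `DΦ` -/
def A1 (ν x G : E) (H : E →L[ℝ] E) (f : ℝ) : E →L[ℝ] E := f • H + rk ν (G + f • x)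

/-- second-order part of `DΦ` -/
def A2' (x G : E) (f : ℝ) : E →L[ℝ] E := -((f ^ 2 / 2) • (1 : E →L[ℝ] E)) - f • rk x G

theorem gram_expand {ν : E} (hν : ‖ν‖ = 1) (A B : E →L[ℝ] E) (s : ℝ) :
    gram ν (1 + s • A + s ^ 2 • B) - 1 - s • (prj ν * (star A + A) * prj ν) -
      s ^ 2 • (prj ν * (star B + B + star A * A) * prj ν) =
    s ^ 3 • (prj ν * (star A * B + star B * A + s • (star B * B)) * prj ν) := by

  have h1 : rk ν ν = 1 - prj ν * prj ν := by
    rw [prj_mul_prj hν, prj]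
    exact (sub_sub_cancel _ _).symm
  simp only [gram, h1, star_add, star_smul, star_one, star_trivial, mul_add, add_mul, mul_one,
    smul_mul_assoc, mul_smul_comm, mul_assoc, smul_add]
  module

theorem star_rk (a b : E) : star (rk a b) = rk b a := by
  ext w
  refine ext_inner_right ℝ fun v => ?_
  rw [ContinuousLinearMap.star_eq_adjoint, ContinuousLinearMap.adjoint_inner_left, C1.rk_apply, C1.rk_apply,
    real_inner_smul_left, real_inner_smul_right, real_inner_comm w a, mul_comm]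

theorem gram_traces {d : ℕ} (hE : finrank ℝ E = d + 1) {ν x G : E} {H : E →L[ℝ] E} (f : ℝ) (hν : ‖ν‖ = 1)
    (hx : ‖x‖ = 1) (hνx : ⟪ν, x⟫ = 0) (hGx : ⟪G, x⟫ = 0) (hH : ∀ v w, ⟪H v, w⟫ = ⟪v, H w⟫) (hHν : H ν = 0) :
    prj ν * (star (A1 ν x G H f) + A1 ν x G H f) * prj ν = (2 * f) • H ∧
    trc (prj ν * (star (A2' x G f) + A2' x G f + star (A1 ν x G H f) * A1 ν x G H f) * prj ν) -
      trc (((2 * f) • H) * ((2 * f) • H)) / 2 = ⟪prj ν G, G⟫ - (trc (H * H) + ((d : ℝ) - 1)) * (f * f) := by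

  have hH' : ∀ v, ⟪ν, H v⟫ = 0 := fun v => by rw [← hH, hHν, inner_zero_left]
  have hνν : ⟪ν, ν⟫ = 1 := by rw [real_inner_self_eq_norm_sq, hν, one_pow]
  have hxx : ⟪x, x⟫ = 1 := by rw [real_inner_self_eq_norm_sq, hx, one_pow]
  have hxν : ⟪x, ν⟫ = 0 := by rw [real_inner_comm, hνx]
  have hxG : ⟪x, G⟫ = 0 := by rw [real_inner_comm, hGx]
  have sH : star H = H := by
    ext w
    refine ext_inner_right ℝ fun v => ?_
    rw [ContinuousLinearMap.star_eq_adjoint, ContinuousLinearMap.adjoint_inner_left, hH]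
  have s1 : star (A1 ν x G H f) = f • H + rk (G + f • x) ν := by
    rw [A1, star_add, star_smul, sH, star_rk, star_trivial]
  have s2 : star (A2' x G f) = -((f ^ 2 / 2) • (1 : E →L[ℝ] E)) - f • rk G x := by
    rw [A2', star_sub, star_neg, star_smul, star_smul, star_one, star_rk, star_trivial, star_trivial]
  constructor
  · rw [s1, A1]
    ext v
    simp only [mul_apply_eq_comp, add_apply, smul_apply, C1.rk_apply, prj_apply, map_sub, map_smul, hHν,
      hH', hνν, smul_zero, map_add, inner_zero_right]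
    module
  · have e : star (A2' x G f) + A2' x G f + star (A1 ν x G H f) * A1 ν x G H f =
        (-f ^ 2) • (1 : E →L[ℝ] E) + (-f) • rk G x + (-f) • rk x G + (f ^ 2) • (H * H) +
          rk (G + f • x) (G + f • x) := by
      rw [s1, s2, A1, A2']
      ext v
      simp only [mul_apply_eq_comp, add_apply, smul_apply, sub_apply, neg_apply, C1.rk_apply, map_smul,
        hHν, hH', hνν, smul_zero, map_add, one_apply_eq_self]
      module
    have t1 : trc (1 : E →L[ℝ] E) = d + 1 := by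
      rw [show (1 : E →L[ℝ] E) = ContinuousLinearMap.id ℝ E from rfl, C1.trc_id, hE]; push_cast; rfl
    rw [e, trc_prj_mul_prj hν, smul_mul_smul_comm]
    simp only [C1.trc_add, C1.trc_smul, C1.trc_rk, t1, mul_apply_eq_comp, add_apply, smul_apply, C1.rk_apply,
      hHν, map_zero, smul_zero, inner_add_right, inner_add_left, real_inner_smul_right, real_inner_smul_left,
      one_apply_eq_self, hνν, hxx, hxν, hνx, hxG, hGx, prj_apply, inner_sub_left, inner_zero_right,
      real_inner_comm G ν]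
    ring

end Crest.Agent.R246.P
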