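import Crest.Agent.R246.C1.Gk

/-!
Row 246, block P: homogeneous functions, gradients, Hessians, pointwise calculus of the signed distance `ψ`.
(May be imported by every block.)
-/

set_option autoImplicit false
set_option linter.unusedSectionVars false

open MeasureTheory Metric Filter Topology Set Module
open scoped RealInnerProductSpace ENNReal ContDiff Real

noncomputable section

namespace Crest.Agent.R246.P

variable {E : Type} [NormedAddCommGroup E] [InnerProductSpace ℝ E] [FiniteDimensional ℝ E]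

variable {F : Type} [NormedAddCommGroup F] [NormedSpace ℝ F]

/-! ### homogeneity -/

/-- `1`-homogeneous -/
def Hom1 (X : E → F) : Prop := ∀ t : ℝ, 0 < t → ∀ y, X (t • y) = t • X y

/-- `fderiv_comp_smul`, `fderiv_const_smul_field` (no differentiability needed) -/
theorem Hom1.fderiv {X : E → F} (h : Hom1 X) : Hom0 (fderiv ℝ X) := by

  intro t ht y
  have h1 := fderiv_comp_smul (𝕜 := ℝ) (f := X) (x := y) t
  have h2 : (fun x => X (t • x)) = t • X := funext fun x => h t ht x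
  rw [h2, fderiv_const_smul_field] at h1
  exact (smul_right_injective _ ht.ne' h1).symm

theorem hom0_fderiv {f : E → F} (h : Hom0 f) : Hom0 fun y => ‖y‖ • fderiv ℝ f y := by

  intro t ht y
  have h1 := fderiv_comp_smul (𝕜 := ℝ) (f := f) (x := y) t
  have h2 : (fun x => f (t • x)) = f := funext fun x => h t ht x
  rw [h2] at h1
  show ‖t • y‖ • fderiv ℝ f (t • y) = ‖y‖ • fderiv ℝ f y
  rw [h1, norm_smul, Real.norm_of_nonneg ht.le, smul_smul, mul_comm]

theorem Hom1.gradient {X : E → ℝ} (h : Hom1 X) : Hom0 (gradient X) := by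

  intro t ht y
  unfold _root_.gradient
  rw [h.fderiv t ht y]

theorem hom0_gradient {f : E → ℝ} (h : Hom0 f) : Hom0 fun y => ‖y‖ • gradient f y := by

  intro t ht y
  have := congrArg (InnerProductSpace.toDual ℝ E).symm (hom0_fderiv h t ht y)
  simpa [gradient] using this

theorem hom0_hat : Hom0 fun y : E => ‖y‖⁻¹ • y := by

  intro t ht y
  show ‖t • y‖⁻¹ • t • y = ‖y‖⁻¹ • y
  rw [norm_smul, Real.norm_of_nonneg ht.le, smul_smul, mul_inv, mul_right_comm, inv_mul_cancel₀ ht.ne', one_mul]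

theorem hasDerivAt_ray {X : E → F} {y : E} (hd : DifferentiableAt ℝ X y) :
    HasDerivAt (fun t : ℝ => X (t • y)) (fderiv ℝ X y y) 1 := by
  have h3 : HasDerivAt (fun t : ℝ => t • y) y 1 := by
    simpa using (hasDerivAt_id (1 : ℝ)).smul_const y
  exact hd.hasFDerivAt.comp_hasDerivAt_of_eq 1 h3 (one_smul _ _).symm

/-- Euler -/
theorem Hom1.euler {X : E → F} (h : Hom1 X) {y : E} (hd : DifferentiableAt ℝ X y) :
    _root_.fderiv ℝ X y y = X y := by

  have h1 := hasDerivAt_ray hd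
  have h2 : (fun t : ℝ => X (t • y)) =ᶠ[𝓝 1] fun t => t • X y :=
    (lt_mem_nhds one_pos).mono fun t ht => h t ht y
  have h3 : HasDerivAt (fun t : ℝ => t • X y) (X y) 1 := by
    simpa using (hasDerivAt_id (1 : ℝ)).smul_const (X y)
  exact h1.unique (h3.congr_of_eventuallyEq h2)

theorem hom0_euler {f : E → F} (h : Hom0 f) {y : E} (hd : DifferentiableAt ℝ f y) :
    fderiv ℝ f y y = 0 := by

  have h1 := hasDerivAt_ray hd
  have h2 : (fun t : ℝ => f (t • y)) =ᶠ[𝓝 1] fun _ => f y :=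
    (lt_mem_nhds one_pos).mono fun t ht => h t ht y
  exact h1.unique ((hasDerivAt_const _ _).congr_of_eventuallyEq h2)

/-! ### gradients and Hessians -/

theorem two_le_inf : (2 : WithTop ℕ∞) ≤ ((⊤ : ℕ∞) : WithTop ℕ∞) :=
  WithTop.coe_le_coe.2 (le_top : (2 : ℕ∞) ≤ ⊤)

theorem one_le_inf : (1 : WithTop ℕ∞) ≤ ((⊤ : ℕ∞) : WithTop ℕ∞) :=
  WithTop.coe_le_coe.2 (le_top : (1 : ℕ∞) ≤ ⊤)

theorem inner_gradient (f : E → ℝ) (y v : E) : ⟪gradient f y, v⟫ = fderiv ℝ f y v := by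

  simp [gradient]

theorem contDiffAt_gradient {f : E → ℝ} {y : E} (hf : ContDiffAt ℝ ∞ f y) :
    ContDiffAt ℝ ∞ (gradient f) y := by

  exact (InnerProductSpace.toDual ℝ E).symm.contDiff.contDiffAt.comp y (hf.fderiv_right (m := ∞) le_rfl)

theorem contDiffAt_hess {f : E → ℝ} {y : E} (hf : ContDiffAt ℝ ∞ f y) : ContDiffAt ℝ ∞ (hess f) y := by

  exact (contDiffAt_gradient hf).fderiv_right (m := ∞) le_rfl

theorem inner_hess {f : E → ℝ} {y : E} (hf : ContDiffAt ℝ ∞ f y) (w v : E) :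
    ⟪hess f y w, v⟫ = fderiv ℝ (fderiv ℝ f) y w v := by

  have h1 : DifferentiableAt ℝ (fderiv ℝ f) y := (hf.fderiv_right (m := ∞) le_rfl).differentiableAt (by simp)
  have h2 := ((InnerProductSpace.toDual ℝ E).symm.toContinuousLinearEquiv.toContinuousLinearMap.hasFDerivAt.comp
    y h1.hasFDerivAt).fderiv
  have h3 : gradient f = (InnerProductSpace.toDual ℝ E).symm.toContinuousLinearEquiv.toContinuousLinearMap ∘
    fderiv ℝ f := rfl
  rw [hess, h3, h2]
  simp

theorem hess_symm {f : E → ℝ} {y : E} (hf : ContDiffAt ℝ ∞ f y) (w v : E) :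
    ⟪hess f y w, v⟫ = ⟪w, hess f y v⟫ := by

  rw [real_inner_comm _ w, inner_hess hf, inner_hess hf]
  exact ((hf.of_le (m := 2) two_le_inf).isSymmSndFDerivAt (by simp)).eq w v

theorem contDiffAt_hat {y : E} (hy : y ≠ 0) : ContDiffAt ℝ ∞ (fun y : E => ‖y‖⁻¹ • y) y := by

  exact ((contDiffAt_norm ℝ hy).inv (norm_ne_zero_iff.2 hy)).smul contDiffAt_id

theorem hasFDerivAt_norm {y : E} (hy : y ≠ 0) :
    HasFDerivAt (fun y : E => ‖y‖) (innerSL ℝ (‖y‖⁻¹ • y)) y := by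

  have h1 := ((hasStrictFDerivAt_norm_sq y).hasFDerivAt).sqrt (pow_ne_zero 2 (norm_ne_zero_iff.2 hy))
  simp only [Real.sqrt_sq (norm_nonneg _)] at h1
  convert h1 using 1
  ext v
  have := norm_ne_zero_iff.2 hy
  simp
  field_simp

/-! ### projections -/

theorem prj_apply (ν v : E) : prj ν v = v - ⟪ν, v⟫ • ν := rfl

theorem inner_prj {ν : E} (hν : ‖ν‖ = 1) (v : E) : ⟪ν, prj ν v⟫ = 0 := by

  rw [prj_apply, inner_sub_right, inner_smul_right, real_inner_self_eq_norm_sq, hν]; ring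

theorem prj_of_orth {ν v : E} (h : ⟪ν, v⟫ = 0) : prj ν v = v := by

  rw [prj_apply, h, zero_smul, sub_zero]

theorem prj_symm (ν v w : E) : ⟪prj ν v, w⟫ = ⟪v, prj ν w⟫ := by

  rw [prj_apply, prj_apply, inner_sub_left, inner_sub_right, inner_smul_left, inner_smul_right,
    real_inner_comm ν v]
  simp [mul_comm]

theorem norm_prj_le {ν : E} (hν : ‖ν‖ = 1) : ‖prj ν‖ ≤ 1 := by

  refine ContinuousLinearMap.opNorm_le_bound _ zero_le_one fun v => ?_
  rw [one_mul, ← sq_le_sq₀ (norm_nonneg _) (norm_nonneg _), prj_apply, norm_sub_sq_real, inner_smul_right,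
    norm_smul, hν, real_inner_comm ν v, mul_one, Real.norm_eq_abs, sq_abs]
  nlinarith [sq_nonneg ⟪ν, v⟫]

theorem trc_mul_comm (A B : E →L[ℝ] E) : trc (A * B) = trc (B * A) := by

  exact LinearMap.trace_mul_comm ℝ (A : E →ₗ[ℝ] E) (B : E →ₗ[ℝ] E)

theorem trc_sub (A B : E →L[ℝ] E) : trc (A - B) = trc A - trc B := by

  simp [trc]

theorem prj_mul_prj {ν : E} (hν : ‖ν‖ = 1) : prj ν * prj ν = prj ν := by
  ext v
  exact prj_of_orth (inner_prj hν v)

theorem trc_prj_mul_prj {ν : E} (hν : ‖ν‖ = 1) (A : E →L[ℝ] E) :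
    trc (prj ν * A * prj ν) = trc A - ⟪ν, A ν⟫ := by

  rw [trc_mul_comm, ← mul_assoc, prj_mul_prj hν]
  have : prj ν * A = A - rk ν ν * A := by ext v; simp [prj]
  have h2 : A * rk ν ν = rk (A ν) ν := by ext v; simp [C1.rk_apply]
  rw [this, trc_sub, trc_mul_comm (rk ν ν), h2, C1.trc_rk]

theorem trc_sq_nonneg {A : E →L[ℝ] E} (h : ∀ v w, ⟪A v, w⟫ = ⟪v, A w⟫) : 0 ≤ trc (A * A) := by

  rw [trc, LinearMap.trace_eq_sum_inner _ (stdOrthonormalBasis ℝ E)]
  refine Finset.sum_nonneg fun i _ => ?_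
  show 0 ≤ ⟪_, A (A _)⟫
  rw [← h]
  exact real_inner_self_nonneg

/-! ### the signed distance function -/

variable {C : Set E} {ψ : E → ℝ} {y : E}

theorem smc_hom1 (h : SMC C ψ) : Hom1 ψ := h.homog

theorem smc_zero (h : SMC C ψ) (hy : y ∈ C) : ψ y = 0 := by

  rw [← abs_eq_zero, h.abs_eq, infDist_zero_of_mem hy]

theorem smc_contDiffAt (h : SMC C ψ) (hy : y ∈ C) (h0 : y ≠ 0) : ContDiffAt ℝ ∞ ψ y := by

  obtain ⟨U, hU, hC, hs, -⟩ := h.smooth
  exact hs.contDiffAt (hU.mem_nhds (hC ⟨hy, h0⟩))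

theorem smc_eventually (h : SMC C ψ) (hy : y ∈ C) (h0 : y ≠ 0) :
    ∀ᶠ z in 𝓝 y, ContDiffAt ℝ ∞ ψ z ∧ ‖gradient ψ z‖ = 1 ∧ ∀ v, ⟪gradient ψ z, hess ψ z v⟫ = 0 := by

  obtain ⟨U, hU, hC, hs, h1⟩ := h.smooth
  filter_upwards [hU.mem_nhds (hC ⟨hy, h0⟩)] with z hz
  have hc := hs.contDiffAt (hU.mem_nhds hz)
  refine ⟨hc, h1 z hz, fun v => ?_⟩
  have hd : HasFDerivAt (gradient ψ) (hess ψ z) z :=
    ((contDiffAt_gradient hc).differentiableAt (by simp)).hasFDerivAt
  have h2 : (fun x => ‖gradient ψ x‖ ^ 2) =ᶠ[𝓝 z] fun _ => 1 := by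
    filter_upwards [hU.mem_nhds hz] with x hx
    rw [h1 x hx, one_pow]
  have h3 := hd.norm_sq.unique ((hasFDerivAt_const _ _).congr_of_eventuallyEq h2)
  simpa using congrArg (fun T : E →L[ℝ] ℝ => T v) h3

theorem smc_norm (h : SMC C ψ) (hy : y ∈ C) (h0 : y ≠ 0) : ‖gradient ψ y‖ = 1 :=
  (smc_eventually h hy h0).self_of_nhds.2.1

theorem smc_inner_hess (h : SMC C ψ) (hy : y ∈ C) (h0 : y ≠ 0) (v : E) :
    ⟪gradient ψ y, hess ψ y v⟫ = 0 := (smc_eventually h hy h0).self_of_nhds.2.2 v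

theorem smc_hess_grad (h : SMC C ψ) (hy : y ∈ C) (h0 : y ≠ 0) : hess ψ y (gradient ψ y) = 0 := by

  refine ext_inner_right ℝ fun v => ?_
  rw [hess_symm (smc_contDiffAt h hy h0), smc_inner_hess h hy h0, inner_zero_left]

theorem smc_inner_self (h : SMC C ψ) (hy : y ∈ C) (h0 : y ≠ 0) : ⟪gradient ψ y, y⟫ = 0 := by

  rw [inner_gradient, (smc_hom1 h).euler ((smc_contDiffAt h hy h0).differentiableAt (by simp)), smc_zero h hy]

theorem smc_hess_self (h : SMC C ψ) (hy : y ∈ C) (h0 : y ≠ 0) : hess ψ y y = 0 := by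

  exact hom0_euler (smc_hom1 h).gradient
    ((contDiffAt_gradient (smc_contDiffAt h hy h0)).differentiableAt (by simp))

theorem A2_nonneg (h : SMC C ψ) (hy : y ∈ C) (h0 : y ≠ 0) : 0 ≤ A2 ψ y := by

  exact mul_nonneg (sq_nonneg _) (trc_sq_nonneg (hess_symm (smc_contDiffAt h hy h0)))

theorem A2_eq (ψ : E → ℝ) (y : E) : A2 ψ y = trc ((‖y‖ • hess ψ y) * (‖y‖ • hess ψ y)) := by

  rw [smul_mul_smul_comm, C1.trc_smul, ← sq]
  rfl

theorem hom0_A2 (h : SMC C ψ) : Hom0 (A2 ψ) := by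

  intro t ht y
  have := hom0_fderiv (smc_hom1 h).gradient t ht y
  rw [A2_eq, A2_eq]
  exact congrArg (fun T : E →L[ℝ] E => trc (T * T)) this

theorem continuousOn_A2 (h : SMC C ψ) : ContinuousOn (A2 ψ) (C \ {0}) := by

  intro y hy
  have h1 := (contDiffAt_hess (smc_contDiffAt h hy.1 hy.2)).continuousAt
  exact ((continuous_norm.continuousAt.pow 2).mul
    (C1.continuous_trc.continuousAt.comp (h1.mul h1))).continuousWithinAt

theorem adm_contDiffAt {f : E → ℝ} (hf : Adm C f) (hy : y ∈ C) (h0 : y ≠ 0) : ContDiffAt ℝ ∞ f y := by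

  obtain ⟨-, U, hU, hC, hs⟩ := hf
  exact hs.contDiffAt (hU.mem_nhds (hC ⟨hy, h0⟩))

/-- a `0`-homogeneous continuous function is bounded on the cone (compactness of `C ∩ sphere`) -/
theorem bdd_of_hom0 (h : CCone C) {G : E → F} (h0 : Hom0 G) (hc : ContinuousOn G (C \ {0})) :
    ∃ K, 0 ≤ K ∧ ∀ y ∈ C, y ≠ 0 → ‖G y‖ ≤ K := by

  have hK : IsCompact (C ∩ sphere 0 1) := (isCompact_sphere 0 1).inter_left h.closed
  have hsub : C ∩ sphere 0 1 ⊆ C \ {0} := fun y hy => ⟨hy.1, fun h1 => by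
    have h2 := hy.2
    rw [show y = 0 from h1] at h2
    simp at h2⟩
  obtain ⟨K, hK⟩ := hK.exists_bound_of_continuousOn (hc.mono hsub)
  refine ⟨max K 0, le_max_right _ _, fun y hy hy0 => ?_⟩
  have hn : 0 < ‖y‖⁻¹ := inv_pos.2 (norm_pos_iff.2 hy0)
  rw [← h0 _ hn y]
  refine (hK _ ⟨h.smul_mem _ hn y hy, ?_⟩).trans (le_max_left _ _)
  rw [mem_sphere_zero_iff_norm, norm_smul, norm_inv, norm_norm, inv_mul_cancel₀ (norm_ne_zero_iff.2 hy0)]

/-- tangential derivatives of a function vanishing on `C` vanish: the nearest point `c_t ∈ C` to `y + t v`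
is at distance `|ψ (y + t v)| = o(t)`. -/
theorem fderiv_tangent (h : SMC C ψ) (hy : y ∈ C) (h0 : y ≠ 0) {G : E → F} (hG : DifferentiableAt ℝ G y)
    (hz : ∀ᶠ z in 𝓝 y, z ∈ C → G z = 0) {v : E} (hv : ⟪gradient ψ y, v⟫ = 0) : fderiv ℝ G y v = 0 := by

  have hne : C.Nonempty := ⟨y, hy⟩
  choose c hc hd using fun t : ℝ => h.closed.exists_infDist_eq_dist hne (y + t • v)
  have hl : HasDerivAt (fun t : ℝ => y + t • v) v 0 := by
    simpa using ((hasDerivAt_id (0 : ℝ)).smul_const v).const_add y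
  have hψ : HasDerivAt (fun t : ℝ => ψ (y + t • v)) 0 0 := by
    have := ((smc_contDiffAt h hy h0).differentiableAt (by simp)).hasFDerivAt.comp_hasDerivAt_of_eq
      0 hl (by simp)
    rwa [← inner_gradient, hv] at this
  have hc0 : c 0 = y := by
    have := hd 0
    simp only [zero_smul, add_zero, infDist_zero_of_mem hy] at this
    exact (dist_eq_zero.1 this.symm).symm
  have hcd : HasDerivAt c v 0 := by
    rw [hasDerivAt_iff_isLittleO_nhds_zero] at hψ ⊢
    refine Asymptotics.IsBigO.trans_isLittleO (Asymptotics.IsBigO.of_bound 1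
      (Eventually.of_forall fun t => le_of_eq ?_)) hψ
    simp only [zero_add, zero_smul, add_zero, smul_zero, sub_zero, smc_zero h hy, one_mul, hc0,
      Real.norm_eq_abs]
    rw [h.abs_eq, hd, dist_comm, dist_eq_norm, sub_sub]
  have h1 := hG.hasFDerivAt.comp_hasDerivAt_of_eq 0 hcd hc0.symm
  have h2 : (G ∘ c) =ᶠ[𝓝 0] fun _ => 0 := by
    have h3 : Tendsto c (𝓝 0) (𝓝 y) := hc0 ▸ hcd.continuousAt
    exact (h3.eventually hz).mono fun t ht => ht (hc t)
  exact h1.unique ((hasDerivAt_const _ _).congr_of_eventuallyEq h2)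

variable [MeasurableSpace E] [BorelSpace E]

theorem ae_mem (h : CCone C) {d : ℕ} (hd : 1 ≤ d) : ∀ᵐ y ∂ar d C, y ∈ C ∧ y ≠ 0 := by

  refine (ae_restrict_mem h.closed.measurableSet).and (ae_restrict_of_ae ?_)
  have : NullSingletonClass (μH[d] : Measure E) :=
    Measure.nullSingletonClass_hausdorff E (by exact_mod_cast hd)
  rw [ae_iff]
  simp only [Measure.euclideanHausdorffMeasure_def, ne_eq, not_not, ofPred_eq_eq_singleton,
    Measure.smul_apply, measure_singleton, smul_zero]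

theorem integrable_of_bdd (h : CCone C) {d : ℕ} (hd : 1 ≤ d) (hi : Integrable (gk d 0 1) (ar d C))
    {G : E → ℝ} (hc : ContinuousOn G (C \ {0})) {K : ℝ} (hK : ∀ y ∈ C, y ≠ 0 → |G y| ≤ K) :
    Integrable (fun y => gk d 0 1 y * G y) (ar d C) := by

  have hm : MeasurableSet (C \ {0}) := h.closed.measurableSet.diff (measurableSet_singleton 0)
  have hae : ∀ᵐ y ∂ar d C, y ∈ C \ {0} := ae_mem h hd
  have h1 : AEStronglyMeasurable G (ar d C) := by
    rw [← Measure.restrict_eq_self_of_ae_mem hae]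
    exact hc.aestronglyMeasurable hm
  exact hi.mul_bdd h1 (hae.mono fun y hy => hK y hy.1 hy.2)

theorem integrable_of_hom0 (h : CCone C) {d : ℕ} (hd : 1 ≤ d) (hi : Integrable (gk d 0 1) (ar d C))
    {G : E → ℝ} (h0 : Hom0 G) (hc : ContinuousOn G (C \ {0})) :
    Integrable (fun y => gk d 0 1 y * G y) (ar d C) := by
  obtain ⟨K, -, hK⟩ := bdd_of_hom0 h h0 hc
  exact integrable_of_bdd h hd hi hc hK

theorem smc_integrable {d : ℕ} (hS : StSMC E) (hE : finrank ℝ E = d + 1) (hd : 2 ≤ d) (h : SMC C ψ) :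
    Integrable (gk d 0 1) (ar d C) := by
  obtain ⟨h1, -, h3, -⟩ := hS d hE hd C ψ h
  rw [← h3]
  exact h1.integ 0 1 one_pos

end Crest.Agent.R246.P
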