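import Crest.Agent.R246.P.Calc

/-!
Row 246, block P: determinant inequalities (pure linear algebra).
-/

set_option autoImplicit false
set_option linter.unusedSectionVars false

open MeasureTheory Metric Filter Topology Set Module
open scoped RealInnerProductSpace ENNReal ContDiff Real

noncomputable section

namespace Crest.Agent.R246.P

variable {E : Type} [NormedAddCommGroup E] [InnerProductSpace ℝ E] [FiniteDimensional ℝ E]

/-- `1 + x ≤ exp (x - x²/(2(1+B)))` for `-1 ≤ x ≤ B` -/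
theorem one_add_le_exp {x B : ℝ} (hx : -1 ≤ x) (hB : 0 ≤ B) (hxB : x ≤ B) :
    1 + x ≤ Real.exp (x - x ^ 2 / (2 * (1 + B))) := by

  have hc : 0 < 1 + B := by linarith
  rcases eq_or_lt_of_le hx with rfl | hx
  · simpa using (Real.exp_pos _).le
  rw [← Real.exp_log (show 0 < 1 + x by linarith), Real.exp_le_exp]
  let g : ℝ → ℝ := fun t => t - t ^ 2 / (2 * (1 + B)) - Real.log (1 + t)
  have hd : ∀ t, -1 < t → HasDerivAt g (t * (B - t) / ((1 + t) * (1 + B))) t := fun t ht => by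
    have h1 : 1 + t ≠ 0 := by linarith
    have h2 := ((hasDerivAt_id t).sub ((hasDerivAt_pow 2 t).div_const (2 * (1 + B)))).sub
      (((hasDerivAt_id t).const_add 1).log h1)
    refine h2.congr_deriv ?_
    simp only [id]
    field_simp
    ring
  suffices 0 ≤ g x by simp only [g] at this; linarith
  have g0 : g 0 = 0 := by simp [g]
  rcases lt_trichotomy x 0 with h0 | rfl | h0
  · obtain ⟨c, hc1, hc2⟩ := exists_hasDerivAt_eq_slope g _ h0
      (fun t ht => (hd t (hx.trans_le ht.1)).continuousAt.continuousWithinAt)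
      (fun t ht => hd t (hx.trans ht.1))
    have h3 : c * (B - c) / ((1 + c) * (1 + B)) ≤ 0 :=
      div_nonpos_of_nonpos_of_nonneg (by nlinarith [hc1.2]) (by nlinarith [hc1.1])
    rw [hc2, g0, div_nonpos_iff] at h3
    rcases h3 with h3 | h3 <;> linarith [h3.1, h3.2]
  · exact g0.ge
  · obtain ⟨c, hc1, hc2⟩ := exists_hasDerivAt_eq_slope g _ h0
      (fun t ht => (hd t (by linarith [ht.1])).continuousAt.continuousWithinAt)
      (fun t ht => hd t (by linarith [ht.1]))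
    have h3 : 0 ≤ c * (B - c) / ((1 + c) * (1 + B)) :=
      div_nonneg (by nlinarith [hc1.1, hc1.2]) (by nlinarith [hc1.1])
    rw [hc2, g0, div_nonneg_iff] at h3
    rcases h3 with h3 | h3 <;> linarith [h3.1, h3.2]

/-- eigenvalues `x i` of `T` (`LinearMap.IsSymmetric.eigenvectorBasis`): `-1 ≤ x i`, `x i ^ 2 ≤ ∑ x ^ 2 ≤ B²`. -/
theorem det_le_exp {T : E →L[ℝ] E} (hT : ∀ v w, ⟪T v, w⟫ = ⟪v, T w⟫) (hpos : ∀ v, 0 ≤ ⟪v, v + T v⟫)
    {B : ℝ} (hB : 0 ≤ B) (hB' : trc (T * T) ≤ B ^ 2) :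
    0 ≤ (1 + T).det ∧ (1 + T).det ≤ Real.exp (trc T - trc (T * T) / (2 * (1 + B))) := by

  have hs : (T : E →ₗ[ℝ] E).IsSymmetric := hT
  set b := hs.eigenvectorBasis rfl
  set x := hs.eigenvalues rfl
  have hb : ∀ i, T (b i) = x i • b i := fun i => hs.apply_eigenvectorBasis rfl i
  have h1 : ∀ i, ⟪b i, b i⟫ = 1 := fun i => by rw [real_inner_self_eq_norm_sq, b.orthonormal.1 i, one_pow]
  have t1 : trc T = ∑ i, x i := by
    rw [trc, LinearMap.trace_eq_sum_inner _ b]
    refine Finset.sum_congr rfl fun i _ => ?_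
    show ⟪b i, T (b i)⟫ = _
    rw [hb, real_inner_smul_right, h1, mul_one]
  have t2 : trc (T * T) = ∑ i, x i ^ 2 := by
    rw [trc, LinearMap.trace_eq_sum_inner _ b]
    refine Finset.sum_congr rfl fun i _ => ?_
    show ⟪b i, T (T (b i))⟫ = _
    rw [hb, map_smul, hb, real_inner_smul_right, real_inner_smul_right, h1, mul_one, sq]
  have t3 : (1 + T).det = ∏ i, (1 + x i) := by
    rw [ContinuousLinearMap.det, ← LinearMap.det_toMatrix b.toBasis, ← Matrix.det_diagonal]
    congr 1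
    ext i j
    have : (1 + T) (b j) = (1 + x j) • b j := by rw [add_apply, hb, add_smul, one_smul]; rfl
    rw [LinearMap.toMatrix_apply, OrthonormalBasis.coe_toBasis, ContinuousLinearMap.coe_coe, this,
      map_smul, ← OrthonormalBasis.coe_toBasis, Basis.repr_self, Matrix.diagonal_apply]
    by_cases hij : i = j
    · subst hij; simp
    · simp [hij]
  have x1 : ∀ i, -1 ≤ x i := fun i => by
    have := hpos (b i)
    rw [hb, inner_add_right, real_inner_smul_right, h1] at this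
    linarith
  have x2 : ∀ i, x i ≤ B := fun i => by
    refine le_trans (le_abs_self _) (abs_le_of_sq_le_sq' ?_ hB |> abs_le.2)
    exact (Finset.single_le_sum (f := fun i => x i ^ 2) (fun i _ => sq_nonneg _)
      (Finset.mem_univ i)).trans (t2 ▸ hB')
  rw [t1, t2, t3, Finset.sum_div, ← Finset.sum_sub_distrib, Real.exp_sum]
  exact ⟨Finset.prod_nonneg fun i _ => by linarith [x1 i],
    Finset.prod_le_prod (fun i _ => by linarith [x1 i]) fun i _ => one_add_le_exp (x1 i) hB (x2 i)⟩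

theorem det_one_add_rk (a ν : E) : (1 + rk a ν).det = 1 + ⟪ν, a⟫ := by

  set b := stdOrthonormalBasis ℝ E
  rw [ContinuousLinearMap.det, ← LinearMap.det_toMatrix b.toBasis]
  have : LinearMap.toMatrix b.toBasis b.toBasis ((1 + rk a ν : E →L[ℝ] E) : E →ₗ[ℝ] E) =
      1 + Matrix.replicateCol Unit (fun i => ⟪b i, a⟫) * Matrix.replicateRow Unit (fun j => ⟪ν, b j⟫) := by
    ext i j
    rw [LinearMap.toMatrix_apply, OrthonormalBasis.coe_toBasis, OrthonormalBasis.coe_toBasis_repr_apply,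
      OrthonormalBasis.repr_apply_apply, ContinuousLinearMap.coe_coe, add_apply, C1.rk_apply,
      one_apply_eq_self, inner_add_right, real_inner_smul_right, b.inner_eq_ite]
    simp [Matrix.one_apply, Matrix.mul_apply, mul_comm]
  rw [this, Matrix.det_one_add_replicateCol_mul_replicateRow, ← b.sum_inner_mul_inner ν a]
  rfl

/-- the induced metric on `ν^⊥`, extended by `1` on `ν` -/
def gram (ν : E) (L : E →L[ℝ] E) : E →L[ℝ] E := prj ν * star L * L * prj ν + rk ν ν

theorem inner_gram (ν : E) (L : E →L[ℝ] E) (w v : E) :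
    ⟪gram ν L w, v⟫ = ⟪L (prj ν w), L (prj ν v)⟫ + ⟪ν, w⟫ * ⟪ν, v⟫ := by
  simp only [gram, add_apply, mul_apply_eq_comp, inner_add_left, C1.rk_apply, real_inner_smul_left,
    ContinuousLinearMap.star_eq_adjoint]
  rw [prj_symm, ContinuousLinearMap.adjoint_inner_left]

theorem clm_mul_eq_one_comm {A B : E →L[ℝ] E} (h : A * B = 1) : B * A = 1 := by
  have h1 : (A : E →ₗ[ℝ] E) * (B : E →ₗ[ℝ] E) = 1 := congrArg ContinuousLinearMap.toLinearMap h
  exact ContinuousLinearMap.coe_injective (mul_eq_one_comm.1 h1)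

theorem clm_det_mul (A B : E →L[ℝ] E) : (A * B).det = A.det * B.det :=
  map_mul LinearMap.det (A : E →ₗ[ℝ] E) (B : E →ₗ[ℝ] E)

theorem clm_det_smul (c : ℝ) (A : E →L[ℝ] E) : (c • A).det = c ^ finrank ℝ E * A.det :=
  LinearMap.det_smul c (A : E →ₗ[ℝ] E)

theorem clm_det_star (A : E →L[ℝ] E) : (star A).det = A.det := by
  set b := stdOrthonormalBasis ℝ E
  rw [ContinuousLinearMap.det, ContinuousLinearMap.det, ← LinearMap.det_toMatrix b.toBasis,
    ← LinearMap.det_toMatrix b.toBasis, ← Matrix.det_transpose]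
  congr 1
  ext i j
  simp only [Matrix.transpose_apply, LinearMap.toMatrix_apply, OrthonormalBasis.coe_toBasis,
    OrthonormalBasis.coe_toBasis_repr_apply, OrthonormalBasis.repr_apply_apply,
    ContinuousLinearMap.coe_coe, ContinuousLinearMap.star_eq_adjoint]
  rw [ContinuousLinearMap.adjoint_inner_right, real_inner_comm]

/-- `L₁ = L P + N ⊗ ν` has `L₁^* L₁ = gram`, so it is invertible and `|det L₁| = √(det gram)`.
`S = L₁ Γ II L₁⁻¹ = L₁^{-*} II L₁⁻¹` is symmetric, `S N = 0`, `S L₁ = -ρ D P`, and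
`(p L + q ρ D) P + N ⊗ ν = (p P' + N ⊗ N)(1 - (q/p) S) L₁` with `P' = prj N`,
`det (p P' + N ⊗ N) = p ^ d ≤ p`. -/
theorem jac_le {d : ℕ} (hE : finrank ℝ E = d + 1) (hd : 1 ≤ d) {ν N : E} {L D II Γ : E →L[ℝ] E} {ρ : ℝ}
    (hν : ‖ν‖ = 1) (hN : ‖N‖ = 1) (horth : ∀ v, ⟪ν, v⟫ = 0 → ⟪N, L v⟫ = 0) (hD : ∀ v, ⟪N, D v⟫ = 0)
    (hII : ∀ v w, ⟪II w, v⟫ = -ρ * ⟪L (prj ν v), D (prj ν w)⟫) (hsymm : ∀ v w, ⟪II v, w⟫ = ⟪v, II w⟫)
    (hΓ : gram ν L * Γ = 1) :
    0 ≤ trc (Γ * II * (Γ * II)) ∧ ∀ p q B : ℝ, 0 < p → p ≤ 1 →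
      (∀ v, ⟪ν, v⟫ = 0 → 0 ≤ ⟪L v, (p • L + (q * ρ) • D) v⟫) → 0 ≤ B →
      (q / p) ^ 2 * trc (Γ * II * (Γ * II)) ≤ B ^ 2 →
      |((p • L + (q * ρ) • D) ∘L prj ν + rk N ν).det| / p ≤ √(gram ν L).det *
        Real.exp (-(q / p) * trc (Γ * II) - (q / p) ^ 2 * trc (Γ * II * (Γ * II)) / (2 * (1 + B))) := by

  set L₁ := L * prj ν + rk N ν with hL₁
  have hNN : ⟪N, N⟫ = 1 := by rw [real_inner_self_eq_norm_sq, hN, one_pow]
  have hLP : ∀ v, ⟪N, L (prj ν v)⟫ = 0 := fun v => horth _ (inner_prj hν v)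
  have hLP' : ∀ v, ⟪L (prj ν v), N⟫ = 0 := fun v => by rw [real_inner_comm, hLP]
  have hL₁v : ∀ v, L₁ v = L (prj ν v) + ⟪ν, v⟫ • N := fun v => rfl
  have hg : star L₁ * L₁ = gram ν L := by
    ext w
    refine ext_inner_right ℝ fun v => ?_
    rw [inner_gram, mul_apply_eq_comp, ContinuousLinearMap.star_eq_adjoint,
      ContinuousLinearMap.adjoint_inner_left, hL₁v, hL₁v]
    simp only [inner_add_left, inner_add_right, real_inner_smul_left, real_inner_smul_right, hLP, hLP', hNN]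
    ring
  have hΓ' : Γ * gram ν L = 1 := clm_mul_eq_one_comm hΓ
  set M := Γ * star L₁ with hM
  have hML : M * L₁ = 1 := by rw [hM, mul_assoc, hg, hΓ']
  have hLM : L₁ * M = 1 := clm_mul_eq_one_comm hML
  have hsM : star L₁ * star M = 1 := by rw [← star_mul, hML, star_one]
  have hsM' : star M * star L₁ = 1 := by rw [← star_mul, hLM, star_one]
  have hΓM : Γ = M * star M := by rw [hM, mul_assoc, ← hM, hsM, mul_one]
  set S := star M * II * M with hS
  have hSs : ∀ v w, ⟪S v, w⟫ = ⟪v, S w⟫ := fun v w => by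
    simp only [hS, mul_apply_eq_comp, ContinuousLinearMap.star_eq_adjoint]
    rw [ContinuousLinearMap.adjoint_inner_left, ContinuousLinearMap.adjoint_inner_right, hsymm]
  have t1 : trc S = trc (Γ * II) := by rw [hS, trc_mul_comm, ← mul_assoc, ← hΓM]
  have t2 : trc (S * S) = trc (Γ * II * (Γ * II)) := by
    rw [hS, ← mul_assoc, trc_mul_comm, hΓM]
    simp only [mul_assoc]
  have hII' : II = star L₁ * ((-ρ) • (D * prj ν)) := by
    ext w
    refine ext_inner_right ℝ fun v => ?_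
    rw [hII, mul_apply_eq_comp, ContinuousLinearMap.star_eq_adjoint, ContinuousLinearMap.adjoint_inner_left,
      hL₁v, smul_apply, mul_apply_eq_comp, real_inner_smul_left, inner_add_right, real_inner_smul_right,
      real_inner_comm N, hD, real_inner_comm]
    ring
  have hSL : S * L₁ = (-ρ) • (D * prj ν) := by
    rw [hS, mul_assoc, hML, mul_one, hII', ← mul_assoc, hsM', one_mul]
  have hSLv : ∀ v, S (L₁ v) = (-ρ) • D (prj ν v) := fun v => congrArg (fun T : E →L[ℝ] E => T v) hSL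
  refine ⟨t2 ▸ trc_sq_nonneg hSs, fun p q B hp hp1 hpsd hB hB' => ?_⟩
  have hfac : (p • L + (q * ρ) • D) ∘L prj ν + rk N ν =
      (p • (1 + rk ((p⁻¹ - 1) • N) N)) * (1 + (-(q / p)) • S) * L₁ := by
    ext v
    simp only [mul_apply_eq_comp, add_apply, smul_apply, one_apply_eq_self, hSLv, C1.rk_apply,
      ContinuousLinearMap.comp_apply]
    simp only [hL₁v, inner_add_right, real_inner_smul_right, hLP, hNN, hD]
    match_scalars <;> field_simp <;> ring
  have hpos : ∀ u, 0 ≤ ⟪u, u + ((-(q / p)) • S) u⟫ := fun u => by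
    obtain ⟨v, rfl⟩ : ∃ v, u = L₁ v := ⟨M u, (congrArg (fun T : E →L[ℝ] E => T u) hLM).symm⟩
    have h1 := hpsd _ (inner_prj hν v)
    rw [smul_apply, hSLv]
    simp only [hL₁v, inner_add_right, inner_add_left, real_inner_smul_right, real_inner_smul_left, hLP, hLP',
      hNN, hD, add_apply, smul_apply] at h1 ⊢
    have h2 := div_nonneg h1 hp.le
    have h3 : (p * ⟪L (prj ν v), L (prj ν v)⟫ + q * ρ * ⟪L (prj ν v), D (prj ν v)⟫) / p =
        ⟪L (prj ν v), L (prj ν v)⟫ + q / p * ρ * ⟪L (prj ν v), D (prj ν v)⟫ := by field_simp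
    nlinarith [mul_self_nonneg ⟪ν, v⟫]
  have e2 : trc ((-(q / p)) • S * (-(q / p)) • S) = (q / p) ^ 2 * trc (Γ * II * (Γ * II)) := by
    rw [smul_mul_smul_comm, C1.trc_smul, t2]; ring
  obtain ⟨d1, d2⟩ := det_le_exp (T := (-(q / p)) • S) (fun v w => by
    simp only [smul_apply, real_inner_smul_left, real_inner_smul_right, hSs]) hpos hB (e2 ▸ hB')
  rw [e2, C1.trc_smul, t1] at d2
  have d3 : (p • (1 + rk ((p⁻¹ - 1) • N) N)).det = p ^ d := by
    rw [clm_det_smul, hE, det_one_add_rk, real_inner_smul_right, hNN, pow_succ]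
    field_simp
    ring
  have d4 : √(gram ν L).det = |L₁.det| := by
    rw [← hg, clm_det_mul, clm_det_star, Real.sqrt_mul_self_eq_abs]
  rw [hfac, clm_det_mul, clm_det_mul, d3, d4, abs_mul, abs_mul, abs_of_nonneg d1,
    abs_of_pos (pow_pos hp d), div_le_iff₀ hp]
  have d5 : p ^ d ≤ p := pow_le_of_le_one hp.le hp1 (by omega)
  calc _ ≤ p * Real.exp _ * |L₁.det| := by gcongr
    _ = _ := by ring

end Crest.Agent.R246.P
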