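import Crest.Agent.R246.P.Calc

/-!
Row 246, block P: global Lipschitz extension of a homogeneous field; small perturbations of the identity.
-/

set_option autoImplicit false
set_option linter.unusedSectionVars false

open MeasureTheory Metric Filter Topology Set Module
open scoped RealInnerProductSpace ENNReal ContDiff Real

noncomputable section

namespace Crest.Agent.R246.P

variable {E : Type} [NormedAddCommGroup E] [InnerProductSpace ℝ E] [FiniteDimensional ℝ E]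

variable {C : Set E}

theorem norm_hat_le (y : E) : ‖‖y‖⁻¹ • y‖ ≤ 1 := by
  rw [norm_smul, norm_inv, norm_norm]
  exact inv_mul_le_one_of_le₀ le_rfl (norm_nonneg _)

theorem mul_norm_hat_sub_le (x y : E) : ‖y‖ * ‖‖x‖⁻¹ • x - ‖y‖⁻¹ • y‖ ≤ 2 * ‖x - y‖ := by
  by_cases hy : y = 0
  · simp [hy]
  by_cases hx : x = 0
  · have := norm_hat_le y
    simp only [hx, smul_zero, zero_sub, norm_neg]
    nlinarith [norm_nonneg y]
  have hy' := norm_ne_zero_iff.2 hy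
  have hx' := norm_ne_zero_iff.2 hx
  have e : ‖y‖ • (‖x‖⁻¹ • x - ‖y‖⁻¹ • y) = (x - y) + (‖y‖ - ‖x‖) • ‖x‖⁻¹ • x := by
    match_scalars <;> field_simp <;> ring
  rw [← norm_norm y, ← norm_smul, norm_norm, e]
  refine (norm_add_le _ _).trans ?_
  rw [norm_smul, Real.norm_eq_abs, abs_sub_comm]
  nlinarith [abs_norm_sub_norm_le x y, norm_hat_le x, abs_nonneg (‖x‖ - ‖y‖)]

/-- `Σ = C ∩ sphere` is compact; `X` is Lipschitz on a compact `cthickening δ Σ ⊆ U`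
(`LocallyLipschitzOn.exists_lipschitzOnWith_of_compact`), extend it to a Lipschitz `Z`
(`LipschitzOnWith.extend_finite_dimension`) and put `Y y = ‖y‖ • Z (‖y‖⁻¹ • y)`,
`V = {y ≠ 0 | ‖y‖⁻¹ • y ∈ thickening δ Σ}`. -/
theorem exists_ext (h : CCone C) {X : E → E} (hX : Hom1 X) {U : Set E} (hU : IsOpen U) (hCU : C \ {0} ⊆ U)
    (hs : ContDiffOn ℝ ∞ X U) : ∃ (Y : E → E) (K : NNReal) (V : Set E), Hom1 Y ∧ LipschitzWith K Y ∧
      IsOpen V ∧ C \ {0} ⊆ V ∧ EqOn Y X V := by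

  have hK : IsCompact (C ∩ sphere 0 1) := (isCompact_sphere 0 1).inter_left h.closed
  have hsub : C ∩ sphere 0 1 ⊆ U := fun y hy => hCU ⟨hy.1, fun h1 => by
    have h2 := hy.2
    rw [show y = 0 from h1] at h2
    simp at h2⟩
  obtain ⟨δ, hδ, hδU⟩ := hK.exists_cthickening_subset_open hU hsub
  obtain ⟨K₀, hK₀⟩ := LocallyLipschitzOn.exists_lipschitzOnWith_of_compact (f := X) (hK.cthickening (r := δ))
    fun y hy => by
      obtain ⟨K, t, ht, hl⟩ := ((hs.contDiffAt (hU.mem_nhds (hδU hy))).of_le one_le_inf).exists_lipschitzOnWith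
      exact ⟨K, t, mem_nhdsWithin_of_mem_nhds ht, hl⟩
  obtain ⟨Z, hZ, hXZ⟩ := hK₀.extend_finite_dimension
  set K₁ := lipschitzExtensionConstant E * K₀
  have hb : ∀ y : E, ‖Z (‖y‖⁻¹ • y)‖ ≤ ‖Z 0‖ + K₁ := fun y => by
    have h1 := hZ.dist_le_mul (‖y‖⁻¹ • y) 0
    rw [dist_zero_right, dist_eq_norm] at h1
    have h2 := norm_hat_le y
    have h3 := norm_sub_norm_le (Z (‖y‖⁻¹ • y)) (Z 0)
    nlinarith [K₁.2, mul_le_mul_of_nonneg_left h2 K₁.2]
  refine ⟨fun y => ‖y‖ • Z (‖y‖⁻¹ • y), ‖Z 0‖₊ + 3 * K₁,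
    {0}ᶜ ∩ (fun y : E => ‖y‖⁻¹ • y) ⁻¹' thickening δ (C ∩ sphere 0 1), fun t ht y => ?_, ?_, ?_, ?_, ?_⟩
  · have := hom0_hat t ht y
    simp only at this ⊢
    rw [this, norm_smul, Real.norm_of_nonneg ht.le, mul_smul]
  · refine LipschitzWith.of_dist_le_mul fun x y => ?_
    have e : ‖x‖ • Z (‖x‖⁻¹ • x) - ‖y‖ • Z (‖y‖⁻¹ • y) =
        (‖x‖ - ‖y‖) • Z (‖x‖⁻¹ • x) + ‖y‖ • (Z (‖x‖⁻¹ • x) - Z (‖y‖⁻¹ • y)) := by module
    have h1 := hZ.dist_le_mul (‖x‖⁻¹ • x) (‖y‖⁻¹ • y)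
    rw [dist_eq_norm, dist_eq_norm] at h1 ⊢
    have h2 := mul_norm_hat_sub_le x y
    have h3 := abs_norm_sub_norm_le x y
    rw [e]
    refine (norm_add_le _ _).trans ?_
    rw [norm_smul, norm_smul, norm_norm, Real.norm_eq_abs]
    push_cast
    nlinarith [mul_le_mul h3 (hb x) (norm_nonneg _) (norm_nonneg _),
      mul_le_mul_of_nonneg_left h1 (norm_nonneg y), mul_le_mul_of_nonneg_left h2 K₁.2]
  · exact ContinuousOn.isOpen_inter_preimage
      (fun y hy => (contDiffAt_hat hy).continuousAt.continuousWithinAt) isOpen_compl_singleton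
      isOpen_thickening
  · intro y hy
    have hn : 0 < ‖y‖⁻¹ := inv_pos.2 (norm_pos_iff.2 hy.2)
    refine ⟨hy.2, self_subset_thickening hδ _ ⟨h.smul_mem _ hn y hy.1, ?_⟩⟩
    rw [mem_sphere_zero_iff_norm, norm_smul, norm_inv, norm_norm, inv_mul_cancel₀ (norm_ne_zero_iff.2 hy.2)]
  · intro y hy
    have hn : 0 < ‖y‖ := norm_pos_iff.2 hy.1
    simp only
    rw [← hXZ (thickening_subset_cthickening _ _ hy.2), ← hX _ hn, smul_smul, mul_inv_cancel₀ hn.ne',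
      one_smul]

/-- `ApproximatesLinearOn.toHomeomorph`, `norm_fderiv_le_of_lipschitz` -/
theorem exists_homeo {Z : E → E} {K : NNReal} (hZ : LipschitzWith K Z) (hK : K < 1) :
    (∃ Φ : E ≃ₜ E, ∀ y, Φ y = y + Z y) ∧
      ∀ y, DifferentiableAt ℝ Z y → IsUnit (fderiv ℝ (fun y => y + Z y) y) := by

  constructor
  · have h1 : ApproximatesLinearOn (fun y => y + Z y)
        ((ContinuousLinearEquiv.refl ℝ E : E ≃L[ℝ] E) : E →L[ℝ] E) univ K := fun x _ y _ => by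
      have := hZ.dist_le_mul x y
      rw [dist_eq_norm, dist_eq_norm] at this
      refine le_of_eq_of_le (congrArg norm ?_) this
      show x + Z x - (y + Z y) - (x - y) = _
      abel
    refine ⟨h1.toHomeomorph _ ?_, fun _ => rfl⟩
    rcases subsingleton_or_nontrivial E with h | h
    · exact Or.inl h
    · right; simpa using hK
  · intro y hy
    have h2 : fderiv ℝ (fun y => y + Z y) y = 1 - -fderiv ℝ Z y := by
      rw [sub_neg_eq_add]
      exact ((hasFDerivAt_id y).add hy.hasFDerivAt).fderiv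
    rw [h2]
    exact (Units.oneSub (-fderiv ℝ Z y) (by
      rw [norm_neg]; exact (norm_fderiv_le_of_lipschitz ℝ hZ).trans_lt (by exact_mod_cast hK))).isUnit

theorem infDist_image_le (h : CCone C) {Φ : E → E} {κ ε : ℝ} (hκ : κ < 1) (hε : 0 ≤ ε) (hε' : 4 * ε ≤ 1 - κ)
    (hΦ : ∀ y, ‖Φ y - y‖ ≤ ε * ‖y‖) (hC : ∀ y : E, ‖y‖ = 1 → infDist y C ≤ κ) (y : E) (hy : ‖y‖ = 1) :
    infDist y (Φ '' C) ≤ (1 + κ) / 2 := by

  obtain ⟨c, hc, hd⟩ := h.closed.exists_infDist_eq_dist ⟨0, h.zero_mem⟩ y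
  have h1 := hC y hy
  rw [hd, dist_eq_norm] at h1
  have h2 : ‖c‖ ≤ 2 := by linarith [norm_sub_norm_le c y, norm_sub_rev c y]
  refine (infDist_le_dist_of_mem (mem_image_of_mem Φ hc)).trans ((dist_triangle y c _).trans ?_)
  rw [dist_eq_norm, dist_comm, dist_eq_norm]
  nlinarith [hΦ c, mul_le_mul_of_nonneg_left h2 hε]

theorem norm_hat_sub_le {x y : E} (hy : y ≠ 0) {ε : ℝ} (h : ‖x - y‖ ≤ ε * ‖y‖) (hx : x ≠ 0) :
    ‖‖x‖⁻¹ • x - ‖y‖⁻¹ • y‖ ≤ 2 * ε := by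

  have h1 := mul_norm_hat_sub_le x y
  have h2 := norm_pos_iff.2 hy
  refine le_of_mul_le_mul_left ?_ h2
  have _ := hx
  linarith

end Crest.Agent.R246.P
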