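import Crest.Agent.R246.P.Fld

/-!
Row 246, block P: the family `Φ_s = id + s X₁ + s² X₂`, `X₁ = f ‖y‖ ν`, `X₂ = -(f²/2) y` near `C`.
-/

set_option autoImplicit false
set_option linter.unusedSectionVars false

open MeasureTheory Metric Filter Topology Set Module Asymptotics
open scoped RealInnerProductSpace ENNReal ContDiff Real

noncomputable section

namespace Crest.Agent.R246.P

variable {E : Type} [NormedAddCommGroup E] [InnerProductSpace ℝ E] [FiniteDimensional ℝ E]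
variable {C : Set E} {ψ f : E → ℝ} {X₁ X₂ : E → E} {K : NNReal} {U : Set E}

/-- `s → 0⁺`, uniformly on the cone -/
def lf (C : Set E) : Filter (ℝ × E) := 𝓝[>] 0 ×ˢ 𝓟 (C \ {0})

theorem lf_mem : ∀ᶠ i in lf C, i.2 ∈ C ∧ i.2 ≠ 0 :=
  (tendsto_snd (f := 𝓝[>] (0 : ℝ)) (g := 𝓟 (C \ {0}))).eventually (mem_principal_self _)

theorem lf_small {a : ℝ} (ha : 0 < a) : ∀ᶠ i in lf C, 0 < i.1 ∧ i.1 ≤ a :=
  (tendsto_fst (f := 𝓝[>] (0 : ℝ)) (g := 𝓟 (C \ {0}))).eventually (Ioc_mem_nhdsGT ha)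

theorem lf_tendsto : Tendsto Prod.fst (lf C) (𝓝 0) := tendsto_fst.mono_right nhdsWithin_le_nhds

theorem lf_extract {p : ℝ × E → Prop} (h : ∀ᶠ i in lf C, p i) :
    ∃ a, 0 < a ∧ ∀ s, 0 < s → s ≤ a → ∀ y ∈ C, y ≠ 0 → p (s, y) := by
  obtain ⟨a, ha, h1⟩ := mem_nhdsGT_iff_exists_Ioc_subset.1 (eventually_prod_principal_iff.1 h)
  exact ⟨a, ha, fun s h2 h3 y hy h0 => h1 ⟨h2, h3⟩ y ⟨hy, h0⟩⟩

theorem bigO_of_hom0 {F : Type} [NormedAddCommGroup F] [NormedSpace ℝ F] (h : CCone C) {G : E → F}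
    (h0 : Hom0 G) (hc : ∀ y ∈ C, y ≠ 0 → ContinuousAt G y) :
    (fun i : ℝ × E => G i.2) =O[lf C] fun _ => (1 : ℝ) := by
  obtain ⟨K, -, hK⟩ := bdd_of_hom0 h h0 fun y hy => (hc y hy.1 hy.2).continuousWithinAt
  exact IsBigO.of_bound K (lf_mem.mono fun i hi => by simpa using hK _ hi.1 hi.2)

theorem bigO_s : (fun i : ℝ × E => i.1) =O[lf C] fun _ => (1 : ℝ) := lf_tendsto.isBigO_one ℝ

theorem bigO_mul {A B : ℝ × E → E →L[ℝ] E} {l : Filter (ℝ × E)} {g : ℝ × E → ℝ} (hA : A =O[l] fun _ => (1 : ℝ))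
    (hB : B =O[l] g) : (fun i => A i * B i) =O[l] g := by simpa using hA.mul hB

theorem bigO_mul' {A B : ℝ × E → E →L[ℝ] E} {l : Filter (ℝ × E)} {g : ℝ × E → ℝ} (hA : A =O[l] g)
    (hB : B =O[l] fun _ => (1 : ℝ)) : (fun i => A i * B i) =O[l] g := by simpa using hA.mul hB

theorem bigO_smul {F : Type} [NormedAddCommGroup F] [NormedSpace ℝ F] {c g : ℝ × E → ℝ} {A : ℝ × E → F}
    {l : Filter (ℝ × E)} (hc : c =O[l] g) (hA : A =O[l] fun _ => (1 : ℝ)) :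
    (fun i => c i • A i) =O[l] g := by simpa using hc.smul hA

theorem bigO_star {A : ℝ × E → E →L[ℝ] E} {l : Filter (ℝ × E)} {g : ℝ × E → ℝ} (hA : A =O[l] g) :
    (fun i => star (A i)) =O[l] g := IsBigO.of_norm_left (by
      simpa only [ContinuousLinearMap.star_eq_adjoint, LinearIsometryEquiv.norm_map] using hA.norm_left)

theorem bigO_bop {B : ℝ × E → E →L[ℝ] E →L[ℝ] E} {a : ℝ × E → E} {l : Filter (ℝ × E)} {g : ℝ × E → ℝ}
    (hB : (fun i => ‖B i‖) =O[l] fun _ => (1 : ℝ)) (ha : a =O[l] g) : (fun i => bop (B i) (a i)) =O[l] g := by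
  refine (IsBigO.of_bound' (g := fun i => ‖B i‖ * ‖a i‖) (Eventually.of_forall fun i => ?_)).trans ?_
  · exact (norm_bop_le _ _).trans (le_abs_self _)
  · simpa using hB.mul ha.norm_left

theorem bigO_prj (h : SMC C ψ) : (fun i : ℝ × E => prj (gradient ψ i.2)) =O[lf C] fun _ => (1 : ℝ) :=
  IsBigO.of_bound' (lf_mem.mono fun i hi => by simpa using norm_prj_le (smc_norm h hi.1 hi.2))

theorem gram_symm (ν : E) (L : E →L[ℝ] E) (v w : E) : ⟪gram ν L v, w⟫ = ⟪v, gram ν L w⟫ := by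
  simp only [gram, add_apply, mul_apply_eq_comp, inner_add_left, inner_add_right, C1.rk_apply,
    real_inner_smul_left, real_inner_smul_right, ContinuousLinearMap.star_eq_adjoint]
  rw [prj_symm, ContinuousLinearMap.adjoint_inner_left, ← prj_symm ν v,
    ContinuousLinearMap.adjoint_inner_right, real_inner_comm ν v, mul_comm]

/-- scaled Hessian -/
def HH (ψ : E → ℝ) (y : E) : E →L[ℝ] E := ‖y‖ • hess ψ y

def YY (ψ : E → ℝ) (X₁ X₂ : E → E) (i : ℝ × E) : E →L[ℝ] E :=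
  gram (gradient ψ i.2) (fderiv ℝ (Ph X₁ X₂ i.1) i.2) - 1

def GG (ψ : E → ℝ) (X₁ X₂ : E → E) (y : E) : E →L[ℝ] E :=
  prj (gradient ψ y) * (star (fderiv ℝ X₂ y) + fderiv ℝ X₂ y + star (fderiv ℝ X₁ y) * fderiv ℝ X₁ y) *
    prj (gradient ψ y)

def bb (ψ : E → ℝ) (X₁ X₂ : E → E) (i : ℝ × E) : E →L[ℝ] E :=
  prj (gradient ψ i.2) * (bop (‖i.2‖ • fderiv ℝ (fderiv ℝ X₁) i.2) (NN (Ph X₁ X₂ i.1) ψ i.2) +
    i.1 • bop (‖i.2‖ • fderiv ℝ (fderiv ℝ X₂) i.2) (NN (Ph X₁ X₂ i.1) ψ i.2)) * prj (gradient ψ i.2)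

def II (ψ : E → ℝ) (X₁ X₂ : E → E) (i : ℝ × E) : E →L[ℝ] E :=
  (‖Ph X₁ X₂ i.1 i.2‖ / ‖i.2‖) • (i.1 • bb ψ X₁ X₂ i - ‖nv (Ph X₁ X₂ i.1) ψ i.2‖⁻¹ • HH ψ i.2)

theorem HH_symm (h : SMC C ψ) {y : E} (hy : y ∈ C) (h0 : y ≠ 0) (v w : E) :
    ⟪HH ψ y v, w⟫ = ⟪v, HH ψ y w⟫ := by
  simp only [HH, smul_apply, real_inner_smul_left, real_inner_smul_right,
    hess_symm (smc_contDiffAt h hy h0)]

theorem HH_grad (h : SMC C ψ) {y : E} (hy : y ∈ C) (h0 : y ≠ 0) : HH ψ y (gradient ψ y) = 0 := by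
  simp only [HH, smul_apply, smc_hess_grad h hy h0, smul_zero]

theorem trc_HH (h : SMC C ψ) {y : E} (hy : y ∈ C) (h0 : y ≠ 0) : trc (HH ψ y) = 0 := by
  rw [HH, C1.trc_smul, show trc (hess ψ y) = 0 from h.minimal y hy h0, mul_zero]

theorem bigO_HH (h : SMC C ψ) : (fun i : ℝ × E => HH ψ i.2) =O[lf C] fun _ => (1 : ℝ) :=
  bigO_of_hom0 h.toCCone (G := HH ψ) (hom0_fderiv (smc_hom1 h).gradient) fun _ hy h0 =>
    continuous_norm.continuousAt.smul (contDiffAt_hess (smc_contDiffAt h hy h0)).continuousAt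

theorem bigO_f (h : SMC C ψ) (hf : Adm C f) : (fun i : ℝ × E => f i.2) =O[lf C] fun _ => (1 : ℝ) :=
  bigO_of_hom0 h.toCCone hf.1 fun _ hy h0 => (adm_contDiffAt hf hy h0).continuousAt

theorem bigO_fderiv {X : E → E} (hX : LipschitzWith K X) :
    (fun i : ℝ × E => fderiv ℝ X i.2) =O[lf C] fun _ => (1 : ℝ) :=
  IsBigO.of_bound K (Eventually.of_forall fun i => by simpa using norm_fderiv_le_of_lipschitz ℝ hX)

theorem bigO_fderiv2 (h : CCone C) {X : E → E} (hX : Hom1 X) (hs : ∀ y ∈ C, y ≠ 0 → ContDiffAt ℝ ∞ X y) :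
    (fun i : ℝ × E => ‖‖i.2‖ • fderiv ℝ (fderiv ℝ X) i.2‖) =O[lf C] fun _ => (1 : ℝ) :=
  bigO_of_hom0 h (G := fun y => ‖‖y‖ • fderiv ℝ (fderiv ℝ X) y‖)
    (fun t ht y => congrArg norm (hom0_fderiv hX.fderiv t ht y)) fun y hy h0 =>
    (continuous_norm.continuousAt.smul
      (((hs y hy h0).fderiv_right (m := ∞) le_rfl).fderiv_right (m := ∞) le_rfl).continuousAt).norm

theorem Fld.traces {d : ℕ} (F : Fld C ψ f X₁ X₂ K U) (hE : finrank ℝ E = d + 1) (h : SMC C ψ) (hf : Adm C f)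
    {y : E} (hy : y ∈ C) (h0 : y ≠ 0) :
    prj (gradient ψ y) * (star (fderiv ℝ X₁ y) + fderiv ℝ X₁ y) * prj (gradient ψ y) = (2 * f y) • HH ψ y ∧
    trc (GG ψ X₁ X₂ y) - trc (((2 * f y) • HH ψ y) * ((2 * f y) • HH ψ y)) / 2 = qd d ψ f f y := by
  have hn := norm_ne_zero_iff.2 h0
  have := gram_traces hE (ν := gradient ψ y) (x := ‖y‖⁻¹ • y) (G := ‖y‖ • gradient f y) (H := HH ψ y) (f y)
    (smc_norm h hy h0) (by rw [norm_smul, norm_inv, norm_norm, inv_mul_cancel₀ hn])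
    (by rw [real_inner_smul_right, smc_inner_self h hy h0, mul_zero])
    (by rw [real_inner_smul_right, real_inner_smul_left, inner_gradient,
      hom0_euler hf.1 ((adm_contDiffAt hf hy h0).differentiableAt (by simp)), mul_zero, mul_zero])
    (HH_symm h hy h0) (HH_grad h hy h0)
  rw [GG, F.fderiv₁ h hf hy h0, F.fderiv₂ hf hy h0]
  refine ⟨this.1, this.2.trans ?_⟩
  rw [qd, A2_eq, map_smul, real_inner_smul_left, real_inner_smul_right, HH]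
  ring

theorem Fld.bigO_GG (F : Fld C ψ f X₁ X₂ K U) (h : SMC C ψ) :
    (fun i : ℝ × E => GG ψ X₁ X₂ i.2) =O[lf C] fun _ => (1 : ℝ) := by
  have a1 := bigO_fderiv (C := C) F.lip₁
  have a2 := bigO_fderiv (C := C) F.lip₂
  exact bigO_mul (bigO_mul (bigO_prj h) (((bigO_star a2).add a2).add (bigO_mul (bigO_star a1) a1)))
    (bigO_prj h)

theorem Fld.bigO_YY {d : ℕ} (F : Fld C ψ f X₁ X₂ K U) (hE : finrank ℝ E = d + 1) (h : SMC C ψ)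
    (hf : Adm C f) : (fun i : ℝ × E => YY ψ X₁ X₂ i - i.1 • (2 * f i.2) • HH ψ i.2 -
      i.1 ^ 2 • GG ψ X₁ X₂ i.2) =O[lf C] fun i => i.1 ^ 3 := by
  have a1 := bigO_fderiv (C := C) F.lip₁
  have a2 := bigO_fderiv (C := C) F.lip₂
  have a3 := bigO_smul (isBigO_refl (fun i : ℝ × E => i.1 ^ 3) (lf C))
    (bigO_mul (bigO_mul (bigO_prj h) (((bigO_mul (bigO_star a1) a2).add (bigO_mul (bigO_star a2) a1)).add
      (bigO_smul bigO_s (bigO_mul (bigO_star a2) a2)))) (bigO_prj h))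
  refine a3.congr' (lf_mem.mono fun i hi => ?_) EventuallyEq.rfl
  simp only
  rw [← gram_expand (smc_norm h hi.1 hi.2), ← (F.traces hE h hf hi.1 hi.2).1, YY,
    F.fderiv_Ph _ (F.sub ⟨hi.1, hi.2⟩), GG]

theorem Fld.ev_small (_F : Fld C ψ f X₁ X₂ K U) : ∀ᶠ i in lf C, 0 < i.1 ∧ i.1 ≤ 1 ∧ 2 * (K : ℝ) * i.1 < 1 := by
  filter_upwards [lf_small one_pos, lf_small (by positivity : (0 : ℝ) < 1 / (2 * K + 1))] with i h1 h2
  refine ⟨h1.1, h1.2, ?_⟩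
  have := (le_div_iff₀ (by positivity)).1 h2.2
  nlinarith [h1.1]

theorem Fld.normal (F : Fld C ψ f X₁ X₂ K U) (h : SMC C ψ) :
    (fun i : ℝ × E => ‖nv (Ph X₁ X₂ i.1) ψ i.2‖⁻¹ - 1) =O[lf C] (fun i => i.1) ∧
    (fun i : ℝ × E => NN (Ph X₁ X₂ i.1) ψ i.2 - gradient ψ i.2) =O[lf C] (fun i => i.1) ∧
    (fun i : ℝ × E => NN (Ph X₁ X₂ i.1) ψ i.2) =O[lf C] fun _ => (1 : ℝ) := by
  have a1 := bigO_fderiv (C := C) F.lip₁
  have a2 := bigO_fderiv (C := C) F.lip₂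
  have hL : (fun i : ℝ × E => fderiv ℝ (Ph X₁ X₂ i.1) i.2 - 1) =O[lf C] fun i => i.1 := by
    refine (bigO_smul (isBigO_refl (fun i : ℝ × E => i.1) (lf C)) (a1.add (bigO_smul bigO_s a2))).congr'
      (lf_mem.mono fun i hi => ?_) EventuallyEq.rfl
    simp only
    rw [F.fderiv_Ph _ (F.sub ⟨hi.1, hi.2⟩)]
    module
  have key : ∀ᶠ i in lf C, ‖NN (Ph X₁ X₂ i.1) ψ i.2‖ = 1 ∧
      |‖nv (Ph X₁ X₂ i.1) ψ i.2‖⁻¹ - 1| ≤ ‖fderiv ℝ (Ph X₁ X₂ i.1) i.2 - 1‖ ∧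
      ‖NN (Ph X₁ X₂ i.1) ψ i.2 - gradient ψ i.2‖ ≤ 2 * ‖fderiv ℝ (Ph X₁ X₂ i.1) i.2 - 1‖ := by
    filter_upwards [lf_mem, F.ev_small] with i hi hs
    obtain ⟨Φ, e, hP, hp⟩ := F.small h hs.1.le hs.2.1 hs.2.2
    obtain ⟨p1, p2, -⟩ := hp _ hi.1 hi.2
    have p3 := hP.unit _ hi.1 hi.2
    rw [e] at p1 p2 p3
    exact ⟨p3, normal_close (smc_norm h hi.1 hi.2) p3 p1 p2⟩
  exact ⟨(IsBigO.of_bound' (key.mono fun i hi => hi.2.1)).trans hL,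
    (IsBigO.of_bound 2 (key.mono fun i hi => hi.2.2)).trans hL,
    IsBigO.of_bound' (key.mono fun i hi => by simp [hi.1])⟩

theorem Fld.bigO_rho (F : Fld C ψ f X₁ X₂ K U) :
    (fun i : ℝ × E => ‖Ph X₁ X₂ i.1 i.2‖ / ‖i.2‖ - 1) =O[lf C] fun i => i.1 := by
  refine IsBigO.of_bound (2 * K) ?_
  filter_upwards [lf_mem, F.ev_small] with i hi hs
  have hn := norm_pos_iff.2 hi.2
  rw [div_sub_one hn.ne', Real.norm_eq_abs, abs_div, abs_of_pos hn, div_le_iff₀ hn,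
    Real.norm_of_nonneg hs.1.le]
  exact (abs_norm_sub_norm_le _ _).trans (F.norm_Ph_sub hs.1.le hs.2.1 _)

theorem Fld.bigO_bb (F : Fld C ψ f X₁ X₂ K U) (h : SMC C ψ) (hf : Adm C f) :
    bb ψ X₁ X₂ =O[lf C] (fun _ => (1 : ℝ)) ∧
    (fun i : ℝ × E => trc (bb ψ X₁ X₂ i) - (hv ψ f i.2 - 2 * f i.2 * trc (HH ψ i.2 * HH ψ i.2))) =O[lf C]
      fun i => i.1 := by
  have b1 := bigO_fderiv2 h.toCCone F.hom₁ fun y hy h0 => F.cd₁ (F.sub ⟨hy, h0⟩)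
  have b2 := bigO_fderiv2 h.toCCone F.hom₂ fun y hy h0 => F.cd₂ (F.sub ⟨hy, h0⟩)
  obtain ⟨-, n2, n3⟩ := F.normal h
  refine ⟨bigO_mul (bigO_mul (bigO_prj h) ((bigO_bop b1 n3).add (bigO_smul bigO_s (bigO_bop b2 n3))))
    (bigO_prj h), ?_⟩
  have c1 := isBigO_trc (bigO_mul' (bigO_mul (bigO_prj h) ((bigO_bop b1 n2).add
    (bigO_smul (isBigO_refl (fun i : ℝ × E => i.1) (lf C)) (bigO_bop b2 n3)))) (bigO_prj h))
  refine c1.congr' (lf_mem.mono fun i hi => ?_) EventuallyEq.rfl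
  obtain ⟨s, y⟩ := i
  obtain ⟨hy, h0⟩ := hi
  simp only at hy h0 ⊢
  have e1 : bop (‖y‖ • fderiv ℝ (fderiv ℝ X₁) y) (NN (Ph X₁ X₂ s) ψ y) +
      s • bop (‖y‖ • fderiv ℝ (fderiv ℝ X₂) y) (NN (Ph X₁ X₂ s) ψ y) =
      (bop (‖y‖ • fderiv ℝ (fderiv ℝ X₁) y) (NN (Ph X₁ X₂ s) ψ y - gradient ψ y) +
        s • bop (‖y‖ • fderiv ℝ (fderiv ℝ X₂) y) (NN (Ph X₁ X₂ s) ψ y)) +
        (‖y‖ • hess (fun z => f z * ‖z‖) y - f y • (HH ψ y * HH ψ y)) := by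
    ext w
    refine ext_inner_right ℝ fun v => ?_
    simp only [add_apply, smul_apply, sub_apply, mul_apply_eq_comp, inner_add_left,
      inner_sub_left, real_inner_smul_left, inner_bop, real_inner_smul_right,
      HH_symm h hy h0 (HH ψ y w), F.second₁ h hf hy h0]
    simp only [HH, smul_apply, real_inner_smul_left, real_inner_smul_right]
    ring
  rw [bb]
  simp only
  rw [e1, mul_add (prj (gradient ψ y)) (_ + _), add_mul _ _ (prj (gradient ψ y)), C1.trc_add,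
    trc_prj_mul_prj (smc_norm h hy h0) (_ - _), trc_sub, C1.trc_smul, C1.trc_smul, hv, A2_eq]
  simp only [sub_apply, smul_apply, mul_apply_eq_comp, HH_grad h hy h0, map_zero, smul_zero,
    sub_zero, real_inner_smul_right, divT]
  simp only [HH, hess]
  ring

theorem Fld.inner_II (F : Fld C ψ f X₁ X₂ K U) (h : SMC C ψ) {s : ℝ} {y : E} (hy : y ∈ C) (h0 : y ≠ 0)
    (v w : E) : ⟪II ψ X₁ X₂ (s, y) w, v⟫ = ‖Ph X₁ X₂ s y‖ *
      (⟪NN (Ph X₁ X₂ s) ψ y, fderiv ℝ (fderiv ℝ (Ph X₁ X₂ s)) y (prj (gradient ψ y) w)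
        (prj (gradient ψ y) v)⟫ -
      ‖nv (Ph X₁ X₂ s) ψ y‖⁻¹ * ⟪hess ψ y (prj (gradient ψ y) w), prj (gradient ψ y) v⟫) := by
  have hn := norm_ne_zero_iff.2 h0
  have e1 : ⟪hess ψ y (prj (gradient ψ y) w), prj (gradient ψ y) v⟫ = ⟪hess ψ y w, v⟫ := by
    rw [prj_apply, prj_apply, map_sub, map_smul, smc_hess_grad h hy h0, smul_zero, sub_zero, inner_sub_right,
      real_inner_smul_right, real_inner_comm (gradient ψ y), smc_inner_hess h hy h0, mul_zero, sub_zero]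
  rw [e1, F.fderiv2_Ph s (F.sub ⟨hy, h0⟩)]
  simp only [II, bb, HH, smul_apply, sub_apply, add_apply, mul_apply_eq_comp,
    real_inner_smul_left, inner_sub_left, prj_symm, inner_bop, inner_add_right, real_inner_smul_right,
    inner_add_left]
  field_simp

theorem exists_family {d : ℕ} (hE : finrank ℝ E = d + 1) (hd : 1 ≤ d) (h : SMC C ψ) (hf : Adm C f) :
    ∃ K s₀ : ℝ, 1 ≤ K ∧ 0 < s₀ ∧ ∀ s, 0 < s → s ≤ s₀ → ∃ (Φ : E ≃ₜ E) (N : E → E), Pert C ψ Φ N ∧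
      (∀ y, ‖Φ y - y‖ ≤ K * s * ‖y‖) ∧ ∀ y ∈ C, y ≠ 0 → ‖y‖ ≤ ‖Φ y‖ ∧ ∃ J H S : ℝ, 0 ≤ J ∧
        J ≤ 1 + s ^ 2 * qd d ψ f f y / 2 + K * s ^ 3 ∧ |H - s * hv ψ f y| ≤ K * s ^ 2 ∧ 0 ≤ S ∧
        |S - A2 ψ y| ≤ K * s ∧ ∀ p q B : ℝ, 0 < p → p ≤ 1 →
          (∀ v, ⟪gradient ψ y, v⟫ = 0 → 0 ≤ ⟪fderiv ℝ Φ y v, Lop Φ N p q y v⟫) → 0 ≤ B →
          (q / p) ^ 2 * S ≤ B ^ 2 →
          Jac ψ Φ N p q y ≤ J * Real.exp (-(q / p) * H - (q / p) ^ 2 * S / (2 * (1 + B))) := by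
  obtain ⟨X₁, X₂, K, U, F⟩ := exists_fld h hf
  have hY := F.bigO_YY hE h hf
  have hG₁ : (fun i : ℝ × E => (2 * f i.2) • HH ψ i.2) =O[lf C] fun _ => (1 : ℝ) :=
    bigO_smul ((bigO_f h hf).const_mul_left 2) (bigO_HH h)
  obtain ⟨KJ, hJ⟩ := alg_det lf_tendsto (F.ev_small.mono fun i hi => hi.1) hG₁ (F.bigO_GG h) hY
    (Eventually.of_forall fun i v w => by
      simp only [YY, sub_apply, inner_sub_left, inner_sub_right, one_apply_eq_self, gram_symm])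
    (lf_mem.mono fun i hi => by rw [C1.trc_smul, trc_HH h hi.1 hi.2, mul_zero])
  have hY2 : (fun i : ℝ × E => YY ψ X₁ X₂ i - (2 * i.1 * f i.2) • HH ψ i.2) =O[lf C] fun i => i.1 ^ 2 := by
    have c1 : (fun i : ℝ × E => i.1 ^ 3) =O[lf C] fun i => i.1 ^ 2 := by
      exact ((isBigO_refl (fun i : ℝ × E => i.1 ^ 2) (lf C)).mul bigO_s).congr
        (fun i => by ring) fun i => mul_one _
    refine ((hY.trans c1).add (bigO_smul (isBigO_refl (fun i : ℝ × E => i.1 ^ 2) (lf C))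
      (F.bigO_GG h))).congr_left fun i => ?_
    module
  obtain ⟨a1, a2, a3⟩ := alg_II lf_tendsto (II := II ψ X₁ X₂) (bigO_HH h) (F.bigO_bb h hf).1 (bigO_f h hf)
    (F.normal h).1 F.bigO_rho hY2 (F.bigO_bb h hf).2 (lf_mem.mono fun i hi => trc_HH h hi.1 hi.2)
    (Eventually.of_forall fun _ => rfl)
  obtain ⟨KH, hH⟩ := a2.bound
  obtain ⟨KS, hS⟩ := a3.bound
  obtain ⟨a, ha, hall⟩ := lf_extract (hJ.and (a1.and (hH.and hS)))
  have hK0 : (0 : ℝ) ≤ K := K.2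
  refine ⟨1 + 2 * K + |KJ| + |KH| + |KS|, min a (1 / (2 * K + 1)), ?_, by positivity, fun s hs hs' => ?_⟩
  · linarith [abs_nonneg KJ, abs_nonneg KH, abs_nonneg KS]
  have hs1 := (le_div_iff₀ (by positivity)).1 (hs'.trans (min_le_right _ _))
  have hs2 : s ≤ 1 := by nlinarith
  obtain ⟨Φ, e, hP, hp⟩ := F.small h hs.le hs2 (by nlinarith)
  refine ⟨Φ, _, hP, fun y => ?_, fun y hy h0 => ⟨e ▸ F.le_norm_Ph h s hy h0, ?_⟩⟩
  · rw [e]
    refine (F.norm_Ph_sub hs.le hs2 y).trans ?_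
    gcongr
    linarith [abs_nonneg KJ, abs_nonneg KH, abs_nonneg KS]
  obtain ⟨b1, b2, b3, b4⟩ := hall s hs (hs'.trans (min_le_left _ _)) y hy h0
  obtain ⟨-, -, p3, p4⟩ := hp y hy h0
  have eg : 1 + YY ψ X₁ X₂ (s, y) = gram (gradient ψ y) (fderiv ℝ Φ y) := by
    rw [YY, e, add_sub_cancel]
  simp only [eg] at b1 b2 b3 b4
  have hsy : IsSymmSndFDerivAt ℝ (Ph X₁ X₂ s) y :=
    (((F.sm_Ph s).contDiffAt (F.isOpen.mem_nhds (F.sub ⟨hy, h0⟩))).of_le two_le_inf).isSymmSndFDerivAt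
      (by simp)
  obtain ⟨j1, j2⟩ := jac_le hE hd (ρ := ‖Φ y‖) (II := II ψ X₁ X₂ (s, y)) (smc_norm h hy h0)
    (hP.unit y hy h0) (hP.orth y hy h0) p3
    (fun v w => by rw [F.inner_II h hy h0, p4 _ _ (inner_prj (smc_norm h hy h0) v), e]; ring)
    (fun v w => by
      rw [real_inner_comm (II ψ X₁ X₂ (s, y) w), F.inner_II h hy h0, F.inner_II h hy h0, hsy.eq,
        hess_symm (smc_contDiffAt h hy h0), real_inner_comm (hess ψ y _)]) b2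
  refine ⟨_, _, _, Real.sqrt_nonneg _, b1.trans ?_, ?_, j1, ?_, j2⟩
  · rw [(F.traces hE h hf hy h0).2]
    gcongr
    linarith [le_abs_self KJ, abs_nonneg KH, abs_nonneg KS]
  · rw [sub_add_cancel, Real.norm_eq_abs, Real.norm_of_nonneg (sq_nonneg s)] at b3
    refine b3.trans ?_
    gcongr
    linarith [abs_nonneg KJ, le_abs_self KH, abs_nonneg KS]
  · rw [Real.norm_eq_abs, Real.norm_of_nonneg hs.le] at b4
    rw [A2_eq]
    refine b4.trans ?_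
    gcongr
    linarith [abs_nonneg KJ, abs_nonneg KH, le_abs_self KS]

end Crest.Agent.R246.P
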