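import Crest.Agent.R246.P.Calc

/-!
Row 246, block P: the unit normal of a perturbed cone and its second fundamental form.
-/

set_option autoImplicit false
set_option linter.unusedSectionVars false

open MeasureTheory Metric Filter Topology Set Module
open scoped RealInnerProductSpace ENNReal ContDiff Real

noncomputable section

namespace Crest.Agent.R246.P

variable {E : Type} [NormedAddCommGroup E] [InnerProductSpace ℝ E] [FiniteDimensional ℝ E]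

variable {C : Set E} {ψ : E → ℝ}

/-- conormal `(DΦ^*)⁻¹ ν` -/
def nv (Φ : E → E) (ψ : E → ℝ) (y : E) : E := star (Ring.inverse (fderiv ℝ Φ y)) (gradient ψ y)

def NN (Φ : E → E) (ψ : E → ℝ) (y : E) : E := ‖nv Φ ψ y‖⁻¹ • nv Φ ψ y

theorem inner_nv {Φ : E → E} {z : E} (hu : IsUnit (fderiv ℝ Φ z)) (v : E) :
    ⟪nv Φ ψ z, fderiv ℝ Φ z v⟫ = ⟪gradient ψ z, v⟫ := by
  rw [nv, ContinuousLinearMap.star_eq_adjoint, ContinuousLinearMap.adjoint_inner_left, ← mul_apply_eq_comp,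
    Ring.inverse_mul_cancel _ hu, one_apply_eq_self]

theorem contDiffAt_nv {Φ : E → E} {z : E} (hΦ : ContDiffAt ℝ ∞ Φ z) (hψ : ContDiffAt ℝ ∞ ψ z)
    (hu : IsUnit (fderiv ℝ Φ z)) : ContDiffAt ℝ ∞ (nv Φ ψ) z := by
  obtain ⟨u, hu⟩ := hu
  have h1 : ContDiffAt ℝ ∞ (Ring.inverse : (E →L[ℝ] E) → E →L[ℝ] E) (fderiv ℝ Φ z) :=
    hu ▸ contDiffAt_ringInverse ℝ u
  have h2 := h1.comp z (hΦ.fderiv_right (m := ∞) le_rfl)
  have h3 : ContDiff ℝ ∞ (fun A : E →L[ℝ] E => ContinuousLinearMap.adjoint A) :=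
    (ContinuousLinearMap.adjoint : (E →L[ℝ] E) ≃ₗᵢ⋆[ℝ] (E →L[ℝ] E)).contDiff
  exact (h3.contDiffAt.comp z h2).clm_apply (contDiffAt_gradient hψ)

/-- On `U ∩ {ψ smooth, ‖ν‖ = 1}`: `⟪nv, DΦ v⟫ = ⟪ν, v⟫`, so `nv ≠ 0`, `NN` is smooth of norm one
(`contDiffAt_ringInverse`, `ContinuousLinearMap.adjoint.contDiff`), and
`⟪NN z, DΦ z v⟫ = ‖nv z‖⁻¹ ⟪ν z, v⟫` near `y`; differentiate this identity in the direction `w`. -/
theorem pert_NN (h : SMC C ψ) (Φ : E ≃ₜ E) (hΦ : Hom1 (Φ : E → E)) {U : Set E} (hU : IsOpen U)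
    (hCU : C \ {0} ⊆ U) (hs : ContDiffOn ℝ ∞ Φ U) (hu : ∀ y ∈ U, IsUnit (fderiv ℝ Φ y)) :
    Pert C ψ Φ (NN Φ ψ) ∧ ∀ y ∈ C, y ≠ 0 → 0 < ‖nv Φ ψ y‖⁻¹ ∧
      (∀ v, ⟪NN Φ ψ y, fderiv ℝ Φ y v⟫ = ‖nv Φ ψ y‖⁻¹ * ⟪gradient ψ y, v⟫) ∧
      (∀ w, ⟪NN Φ ψ y, fderiv ℝ (NN Φ ψ) y w⟫ = 0) ∧
      ∀ v w, ⟪gradient ψ y, v⟫ = 0 → ⟪fderiv ℝ Φ y v, fderiv ℝ (NN Φ ψ) y w⟫ =
        ‖nv Φ ψ y‖⁻¹ * ⟪hess ψ y w, v⟫ - ⟪NN Φ ψ y, fderiv ℝ (fderiv ℝ Φ) y w v⟫ := by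

  obtain ⟨V, hV, hCV, hψ, h1⟩ := h.smooth
  have hW : IsOpen (U ∩ V) := hU.inter hV
  have hCW : C \ {0} ⊆ U ∩ V := fun y hy => ⟨hCU hy, hCV hy⟩
  have a1 : ∀ z ∈ U ∩ V, ∀ v, ⟪nv Φ ψ z, fderiv ℝ Φ z v⟫ = ⟪gradient ψ z, v⟫ := fun z hz =>
    inner_nv (hu z hz.1)
  have a2 : ∀ z ∈ U ∩ V, nv Φ ψ z ≠ 0 := fun z hz h0 => by
    have := a1 z hz (gradient ψ z)
    rw [h0, inner_zero_left, real_inner_self_eq_norm_sq, h1 z hz.2] at this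
    norm_num at this
  have a3 : ∀ z ∈ U ∩ V, ContDiffAt ℝ ∞ (nv Φ ψ) z := fun z hz =>
    contDiffAt_nv (hs.contDiffAt (hU.mem_nhds hz.1)) (hψ.contDiffAt (hV.mem_nhds hz.2)) (hu z hz.1)
  have a4 : ∀ z ∈ U ∩ V, ContDiffAt ℝ ∞ (fun z => ‖nv Φ ψ z‖⁻¹) z := fun z hz =>
    ((a3 z hz).norm ℝ (a2 z hz)).inv (norm_ne_zero_iff.2 (a2 z hz))
  have a5 : ∀ z ∈ U ∩ V, ContDiffAt ℝ ∞ (NN Φ ψ) z := fun z hz => (a4 z hz).smul (a3 z hz)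
  have a6 : ∀ z ∈ U ∩ V, ‖NN Φ ψ z‖ = 1 := fun z hz => by
    rw [NN, norm_smul, norm_inv, norm_norm, inv_mul_cancel₀ (norm_ne_zero_iff.2 (a2 z hz))]
  have a7 : ∀ z ∈ U ∩ V, ∀ v, ⟪NN Φ ψ z, fderiv ℝ Φ z v⟫ = ‖nv Φ ψ z‖⁻¹ * ⟪gradient ψ z, v⟫ :=
    fun z hz v => by rw [NN, real_inner_smul_left, a1 z hz]
  have a8 : ∀ z ∈ U ∩ V, 0 < ‖nv Φ ψ z‖⁻¹ := fun z hz => inv_pos.2 (norm_pos_iff.2 (a2 z hz))
  refine ⟨⟨hΦ, fun t ht y => ?_, ⟨U ∩ V, hW, hCW, (hs.mono inter_subset_left).of_le two_le_inf,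
    fun z hz => ((a5 z hz).of_le one_le_inf).contDiffWithinAt⟩, fun y hy h0 => a6 y (hCW ⟨hy, h0⟩),
    fun y hy h0 v hv => by rw [a7 y (hCW ⟨hy, h0⟩), hv, mul_zero], fun y hy h0 => ?_,
    fun y hy h0 => ?_⟩, fun y hy h0 => ⟨a8 y (hCW ⟨hy, h0⟩), a7 y (hCW ⟨hy, h0⟩), fun w => ?_,
      fun v w hv => ?_⟩⟩
  · simp only [NN, nv, hΦ.fderiv t ht y, (smc_hom1 h).gradient t ht y]
  · obtain ⟨u, hu'⟩ := hu y (hCU ⟨hy, h0⟩)
    rw [← hu']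
    exact (ContinuousLinearEquiv.ofUnit u).injective
  · rw [a7 y (hCW ⟨hy, h0⟩), real_inner_self_eq_norm_sq, smc_norm h hy h0, one_pow, mul_one]
    exact a8 y (hCW ⟨hy, h0⟩)
  · have hd := ((a5 y (hCW ⟨hy, h0⟩)).differentiableAt (by simp)).hasFDerivAt
    have h2 : (fun x => ‖NN Φ ψ x‖ ^ 2) =ᶠ[𝓝 y] fun _ => 1 := by
      filter_upwards [hW.mem_nhds (hCW ⟨hy, h0⟩)] with x hx
      rw [a6 x hx, one_pow]
    have h3 := hd.norm_sq.unique ((hasFDerivAt_const _ _).congr_of_eventuallyEq h2)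
    simpa using congrArg (fun T : E →L[ℝ] ℝ => T w) h3
  · have hy' := hCW ⟨hy, h0⟩
    have d1 := ((a5 y hy').differentiableAt (by simp)).hasFDerivAt
    have d2 := (((hs.contDiffAt (hU.mem_nhds hy'.1)).fderiv_right (m := ∞) le_rfl).differentiableAt
      (by simp)).hasFDerivAt
    have d3 := ((a4 y hy').differentiableAt (by simp)).hasFDerivAt
    have d4 : HasFDerivAt (gradient ψ) (hess ψ y) y :=
      ((contDiffAt_gradient (smc_contDiffAt h hy h0)).differentiableAt (by simp)).hasFDerivAt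
    have he : (fun z => ‖nv Φ ψ z‖⁻¹ * ⟪gradient ψ z, v⟫) =ᶠ[𝓝 y] fun z => ⟪NN Φ ψ z, fderiv ℝ Φ z v⟫ := by
      filter_upwards [hW.mem_nhds hy'] with z hz
      rw [a7 z hz]
    have e := ((d1.inner ℝ (d2.clm_apply (hasFDerivAt_const v y))).congr_of_eventuallyEq he).unique
      (d3.fun_mul (d4.inner ℝ (hasFDerivAt_const v y)))
    have e2 := congrArg (fun T : E →L[ℝ] ℝ => T w) e
    simp only [ContinuousLinearMap.comp_apply, ContinuousLinearMap.prod_apply, fderivInnerCLM_apply,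
      ContinuousLinearMap.comp_zero, zero_add, ContinuousLinearMap.flip_apply, smul_apply, hv,
      zero_smul, add_zero, smul_eq_mul, zero_apply, inner_zero_right] at e2
    rw [real_inner_comm, ← e2]
    ring

/-- the operator of the bilinear form `(w, v) ↦ ⟪a, B w v⟫` -/
def bop (B : E →L[ℝ] E →L[ℝ] E) (a : E) : E →L[ℝ] E :=
  (InnerProductSpace.toDual ℝ E).symm.toContinuousLinearEquiv.toContinuousLinearMap ∘L
    (ContinuousLinearMap.compL ℝ E E ℝ (innerSL ℝ a)) ∘L B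

theorem inner_bop (B : E →L[ℝ] E →L[ℝ] E) (a w v : E) : ⟪bop B a w, v⟫ = ⟪a, B w v⟫ := by

  simp [bop]

theorem le_of_mul_le_mul_of_sq (x : E) {c : ℝ} (hc : 0 ≤ c) (h : ‖x‖ ^ 2 ≤ c * ‖x‖) : ‖x‖ ≤ c := by
  by_contra h1
  nlinarith [not_le.1 h1]

theorem norm_bop_le (B : E →L[ℝ] E →L[ℝ] E) (a : E) : ‖bop B a‖ ≤ ‖B‖ * ‖a‖ := by

  refine ContinuousLinearMap.opNorm_le_bound _ (by positivity) fun w => ?_
  refine le_of_mul_le_mul_of_sq (bop B a w) (by positivity) ?_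
  rw [← real_inner_self_eq_norm_sq, inner_bop]
  refine (real_inner_le_norm _ _).trans ?_
  have := B.le_opNorm₂ w (bop B a w)
  nlinarith [mul_le_mul_of_nonneg_left this (norm_nonneg a)]

/-- `L^* N = μ ν` -/
theorem normal_close {ν N : E} {L : E →L[ℝ] E} {μ : ℝ} (hν : ‖ν‖ = 1) (hN : ‖N‖ = 1) (hμ : 0 < μ)
    (h : ∀ v, ⟪N, L v⟫ = μ * ⟪ν, v⟫) : |μ - 1| ≤ ‖L - 1‖ ∧ ‖N - ν‖ ≤ 2 * ‖L - 1‖ := by

  have h1 : ‖N - μ • ν‖ ≤ ‖L - 1‖ := by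
    refine le_of_mul_le_mul_of_sq _ (norm_nonneg _) ?_
    have h2 : ∀ v, ⟪N - μ • ν, v⟫ = -⟪N, (L - 1) v⟫ := fun v => by
      rw [inner_sub_left, real_inner_smul_left, ← h, sub_apply, inner_sub_right, one_apply_eq_self]; ring
    rw [← real_inner_self_eq_norm_sq, h2]
    refine (neg_le_abs _).trans ((abs_real_inner_le_norm _ _).trans ?_)
    rw [hN, one_mul]
    exact (L - 1).le_opNorm _
  have h3 : |μ - 1| ≤ ‖L - 1‖ := by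
    have := abs_norm_sub_norm_le N (μ • ν)
    rw [hN, norm_smul, hν, mul_one, Real.norm_of_nonneg hμ.le, abs_sub_comm] at this
    exact this.trans h1
  refine ⟨h3, ?_⟩
  have h4 : N - ν = (N - μ • ν) + (μ - 1) • ν := by module
  rw [h4]
  refine (norm_add_le _ _).trans ?_
  rw [norm_smul, hν, mul_one, Real.norm_eq_abs]
  linarith

end Crest.Agent.R246.P
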