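import Crest.Agent.R246.P.Calc

/-!
Row 246, block P: the densities of the second variation.
-/

set_option autoImplicit false
set_option linter.unusedSectionVars false

open MeasureTheory Metric Filter Topology Set Module
open scoped RealInnerProductSpace ENNReal ContDiff Real

noncomputable section

namespace Crest.Agent.R246.P

variable {E : Type} [NormedAddCommGroup E] [InnerProductSpace ℝ E] [FiniteDimensional ℝ E]

variable {C : Set E} {ψ f : E → ℝ}

/-- density of `Qf` -/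
def qd (d : ℕ) (ψ f g : E → ℝ) (y : E) : ℝ :=
  ‖y‖ ^ 2 * ⟪prj (gradient ψ y) (gradient f y), gradient g y⟫ - (A2 ψ y + ((d : ℝ) - 1)) * (f y * g y)

/-- first variation of the mean curvature -/
def hv (ψ f : E → ℝ) (y : E) : ℝ :=
  ‖y‖ * divT (gradient fun z => f z * ‖z‖) (y, gradient ψ y) + A2 ψ y * f y

theorem hom1_mul_norm (hf : Hom0 f) : Hom1 fun y => f y * ‖y‖ := fun t ht y => by
  simp only [hf t ht y, norm_smul, Real.norm_of_nonneg ht.le, smul_eq_mul]; ring

theorem fderiv_mul_norm {y : E} (h0 : y ≠ 0) (hf : DifferentiableAt ℝ f y) (v : E) :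
    fderiv ℝ (fun z => f z * ‖z‖) y v = ⟪‖y‖ • gradient f y + f y • ‖y‖⁻¹ • y, v⟫ := by
  rw [(hf.hasFDerivAt.fun_mul (hasFDerivAt_norm h0)).fderiv, inner_add_left, real_inner_smul_left,
    real_inner_smul_left, inner_gradient]
  simp [real_inner_smul_left]
  ring

theorem qd_eq (d : ℕ) (ψ f g : E → ℝ) (y : E) : qd d ψ f g y =
    ⟪prj (gradient ψ y) (‖y‖ • gradient f y), ‖y‖ • gradient g y⟫ -
      (A2 ψ y + ((d : ℝ) - 1)) * (f y * g y) := by
  rw [qd, map_smul, real_inner_smul_left, real_inner_smul_right]; ring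

theorem hv_eq (ψ f : E → ℝ) (y : E) : hv ψ f y = trc (‖y‖ • hess (fun z => f z * ‖z‖) y) -
    ⟪gradient ψ y, (‖y‖ • hess (fun z => f z * ‖z‖) y) (gradient ψ y)⟫ + A2 ψ y * f y := by
  rw [hv, divT, C1.trc_smul, smul_apply, real_inner_smul_right, hess]; ring

theorem hom0_qd (d : ℕ) (h : SMC C ψ) {g : E → ℝ} (hf : Hom0 f) (hg : Hom0 g) : Hom0 (qd d ψ f g) := by

  intro t ht y
  have h1 := hom0_gradient hf t ht y
  have h2 := hom0_gradient hg t ht y
  simp only at h1 h2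
  rw [qd_eq, qd_eq, h1, h2, (smc_hom1 h).gradient t ht y, hom0_A2 h t ht y, hf t ht y, hg t ht y]

theorem continuousOn_qd (d : ℕ) (h : SMC C ψ) {g : E → ℝ} (hf : Adm C f) (hg : Adm C g) :
    ContinuousOn (qd d ψ f g) (C \ {0}) := by

  intro y hy
  have c1 := (contDiffAt_gradient (smc_contDiffAt h hy.1 hy.2)).continuousAt
  have c2 := (contDiffAt_gradient (adm_contDiffAt hf hy.1 hy.2)).continuousAt
  have c3 := (contDiffAt_gradient (adm_contDiffAt hg hy.1 hy.2)).continuousAt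
  have c4 := (adm_contDiffAt hf hy.1 hy.2).continuousAt
  have c5 := (adm_contDiffAt hg hy.1 hy.2).continuousAt
  exact (((continuous_norm.continuousAt.pow 2).mul
    ((c2.sub ((c1.inner c2).smul c1)).inner c3)).continuousWithinAt).sub
    (((continuousOn_A2 h y hy).add continuousWithinAt_const).mul (c4.mul c5).continuousWithinAt)

theorem hom0_hv (h : SMC C ψ) (hf : Hom0 f) : Hom0 (hv ψ f) := by

  intro t ht y
  have h1 := hom0_fderiv (hom1_mul_norm hf).gradient t ht y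
  simp only at h1
  rw [hv_eq, hv_eq, hess, hess, h1, (smc_hom1 h).gradient t ht y, hom0_A2 h t ht y, hf t ht y]

theorem continuousOn_hv (h : SMC C ψ) (hf : Adm C f) : ContinuousOn (hv ψ f) (C \ {0}) := by

  intro y hy
  have c1 := (contDiffAt_gradient (smc_contDiffAt h hy.1 hy.2)).continuousAt
  have c2 := (contDiffAt_hess ((adm_contDiffAt hf hy.1 hy.2).mul (contDiffAt_norm ℝ hy.2))).continuousAt
  have c4 := (adm_contDiffAt hf hy.1 hy.2).continuousAt
  exact ((continuous_norm.continuousAt.mul ((C1.continuous_trc.continuousAt.comp c2).sub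
    (c1.inner (c2.clm_apply c1)))).continuousWithinAt).add
    ((continuousOn_A2 h y hy).mul c4.continuousWithinAt)

variable [MeasurableSpace E] [BorelSpace E]

theorem integrable_mul_hv {d : ℕ} (hi : Integrable (gk d 0 1) (ar d C)) (hd : 1 ≤ d) (h : SMC C ψ)
    (hf : Adm C f) {g : E → ℝ} (hg : Adm C g) :
    Integrable (fun y => gk d 0 1 y * (g y * hv ψ f y)) (ar d C) :=
  integrable_of_hom0 h.toCCone hd hi (fun t ht y => by simp only [hg.1 t ht y, hom0_hv h hf.1 t ht y])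
    (ContinuousOn.mul (fun _ hy => (adm_contDiffAt hg hy.1 hy.2).continuousAt.continuousWithinAt)
      (continuousOn_hv h hf))

/-- `StIBP` for `Y = g • ∇F`, `F = f ‖·‖`: `∇F = ‖y‖ ∇f + f ŷ`, `⟪∇f, y⟫ = ⟪∇g, y⟫ = ⟪ν, y⟫ = 0`. -/
theorem integral_hv {d : ℕ} (hS : StSMC E) (hI : StIBP E) (hE : finrank ℝ E = d + 1) (hd : 2 ≤ d)
    (h : SMC C ψ) (hf : Adm C f) {g : E → ℝ} (hg : Adm C g) :
    ∫ y, gk d 0 1 y * (g y * hv ψ f y) ∂ar d C = -Qf d C ψ f g := by

  have hi := smc_integrable hS hE hd h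
  have hd1 : 1 ≤ d := by omega
  obtain ⟨Uf, hUf, hCf, hsf⟩ := hf.2
  obtain ⟨Ug, hUg, hCg, hsg⟩ := hg.2
  have key := hI d hE hd C ψ h (fun y => g y • gradient (fun z => f z * ‖z‖) y) (Uf ∩ Ug ∩ {0}ᶜ)
    ((hUf.inter hUg).inter isOpen_compl_singleton) (fun y hy => ⟨⟨hCf hy, hCg hy⟩, hy.2⟩)
    (fun y hy => (((hsg.contDiffAt (hUg.mem_nhds hy.1.2)).smul (contDiffAt_gradient
      ((hsf.contDiffAt (hUf.mem_nhds hy.1.1)).mul (contDiffAt_norm ℝ hy.2)))).of_le
        one_le_inf).contDiffWithinAt)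
    (fun t ht y => by simp only [hg.1 t ht y, (hom1_mul_norm hf.1).gradient t ht y])
  have i1 := integrable_of_hom0 h.toCCone hd1 hi (hom0_qd d h hf.1 hg.1) (continuousOn_qd d h hf hg)
  have i2 := integrable_mul_hv hi hd1 h hf hg
  rw [integral_congr_ae (g := fun y => gk d 0 1 y * (g y * hv ψ f y) + gk d 0 1 y * qd d ψ f g y),
    integral_add i2 i1] at key
  · exact eq_neg_of_add_eq_zero_left key
  filter_upwards [ae_mem h.toCCone hd1] with y hy
  obtain ⟨hy, h0⟩ := hy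
  have hn := norm_ne_zero_iff.2 h0
  have df := (adm_contDiffAt hf hy h0).differentiableAt (by simp)
  have dg := (adm_contDiffAt hg hy h0).differentiableAt (by simp)
  have e1 : gradient (fun z => f z * ‖z‖) y = ‖y‖ • gradient f y + f y • ‖y‖⁻¹ • y :=
    ext_inner_right ℝ fun v => by rw [inner_gradient, fderiv_mul_norm h0 df]
  have e2 : ⟪gradient f y, y⟫ = 0 := by rw [inner_gradient, hom0_euler hf.1 df]
  have e3 : ⟪gradient g y, y⟫ = 0 := by rw [inner_gradient, hom0_euler hg.1 dg]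
  rw [C1.divT_smul (z := (y, gradient ψ y)) dg.hasFDerivAt ((contDiffAt_gradient
    ((adm_contDiffAt hf hy h0).mul (contDiffAt_norm ℝ h0))).differentiableAt (by simp)), hv, qd]
  simp only [← inner_gradient]
  rw [e1]
  simp only [prj_apply, inner_add_right, inner_add_left, inner_sub_right, real_inner_smul_left,
    real_inner_smul_right, e2, e3, smc_inner_self h hy h0, real_inner_self_eq_norm_sq,
    real_inner_comm (gradient g y)]
  field_simp
  ring

theorem integral_aff_hv {d : ℕ} (hS : StSMC E) (hI : StIBP E) (hE : finrank ℝ E = d + 1) (hd : 2 ≤ d)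
    (h : SMC C ψ) (hf : Adm C f) (h1 : Qf d C ψ f (fun _ => 1) = 0)
    (h2 : ∀ a : E, Qf d C ψ f (fun y => ⟪a, ‖y‖⁻¹ • y⟫) = 0) (α : ℝ) (b : E) :
    ∫ y, gk d 0 1 y * ((α + ⟪b, ‖y‖⁻¹ • y⟫) * hv ψ f y) ∂ar d C = 0 := by

  have hi := smc_integrable hS hE hd h
  have hd1 : 1 ≤ d := by omega
  have g1 : Adm C fun _ => (1 : ℝ) := ⟨fun _ _ _ => rfl, univ, isOpen_univ, subset_univ _, contDiffOn_const⟩
  have g2 : Adm C fun y => ⟪b, ‖y‖⁻¹ • y⟫ :=
    ⟨fun t ht y => congrArg (fun x => ⟪b, x⟫) (hom0_hat t ht y), {0}ᶜ, isOpen_compl_singleton,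
      fun _ hy => hy.2, fun y hy => (contDiffAt_const.inner ℝ (contDiffAt_hat hy)).contDiffWithinAt⟩
  have e : (fun y => gk d 0 1 y * ((α + ⟪b, ‖y‖⁻¹ • y⟫) * hv ψ f y)) =
      fun y => α * (gk d 0 1 y * (1 * hv ψ f y)) + gk d 0 1 y * (⟪b, ‖y‖⁻¹ • y⟫ * hv ψ f y) := by
    funext y; ring
  rw [e, integral_add ((integrable_mul_hv hi hd1 h hf g1).const_mul α) (integrable_mul_hv hi hd1 h hf g2),
    integral_const_mul, integral_hv hS hI hE hd h hf g1, integral_hv hS hI hE hd h hf g2, h1, h2]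
  simp

end Crest.Agent.R246.P
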