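import Crest.Agent.R246.P.Alg
import Crest.Agent.R246.P.Nrm
import Crest.Agent.R246.P.Ext
import Crest.Agent.R246.P.Var

/-!
Row 246, block P: the fields `X₁ = f ‖y‖ ν`, `X₂ = -(f²/2) y` and their derivatives on the cone.
-/

set_option autoImplicit false
set_option linter.unusedSectionVars false

open MeasureTheory Metric Filter Topology Set Module
open scoped RealInnerProductSpace ENNReal ContDiff Real

noncomputable section

namespace Crest.Agent.R246.P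

variable {E : Type} [NormedAddCommGroup E] [InnerProductSpace ℝ E] [FiniteDimensional ℝ E]
variable {C : Set E} {ψ f : E → ℝ}

structure Fld (C : Set E) (ψ f : E → ℝ) (X₁ X₂ : E → E) (K : NNReal) (U : Set E) : Prop where
  hom₁ : Hom1 X₁
  hom₂ : Hom1 X₂
  lip₁ : LipschitzWith K X₁
  lip₂ : LipschitzWith K X₂
  isOpen : IsOpen U
  sub : C \ {0} ⊆ U
  sm₁ : ContDiffOn ℝ ∞ X₁ U
  sm₂ : ContDiffOn ℝ ∞ X₂ U
  eq₁ : ∀ y ∈ U, X₁ y = (f y * ‖y‖) • gradient ψ y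
  eq₂ : ∀ y ∈ U, X₂ y = -(f y ^ 2 / 2) • y

theorem exists_fld (h : SMC C ψ) (hf : Adm C f) : ∃ X₁ X₂ K U, Fld C ψ f X₁ X₂ K U := by
  obtain ⟨hf0, Uf, hUf, hCf, hsf⟩ := hf
  obtain ⟨Uψ, hUψ, hCψ, hsψ, -⟩ := h.smooth
  have hU : IsOpen (Uf ∩ Uψ ∩ {0}ᶜ) := (hUf.inter hUψ).inter isOpen_compl_singleton
  have hC : C \ {0} ⊆ Uf ∩ Uψ ∩ {0}ᶜ := fun y hy => ⟨⟨hCf hy, hCψ hy⟩, hy.2⟩
  have s1 : ContDiffOn ℝ ∞ (fun y => (f y * ‖y‖) • gradient ψ y) (Uf ∩ Uψ ∩ {0}ᶜ) := fun y hy =>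
    (((hsf.contDiffAt (hUf.mem_nhds hy.1.1)).mul (contDiffAt_norm ℝ hy.2)).smul
      (contDiffAt_gradient (hsψ.contDiffAt (hUψ.mem_nhds hy.1.2)))).contDiffWithinAt
  have s2 : ContDiffOn ℝ ∞ (fun y => -(f y ^ 2 / 2) • y) (Uf ∩ Uψ ∩ {0}ᶜ) := fun y hy =>
    ((((hsf.contDiffAt (hUf.mem_nhds hy.1.1)).pow 2).div_const 2).neg.smul contDiffAt_id).contDiffWithinAt
  obtain ⟨X₁, K₁, V₁, a1, a2, a3, a4, a5⟩ := exists_ext h.toCCone
    (X := fun y => (f y * ‖y‖) • gradient ψ y) (fun t ht y => by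
      have := hom1_mul_norm hf0 t ht y
      simp only at this ⊢
      rw [this, (smc_hom1 h).gradient t ht y, smul_assoc]) hU hC s1
  obtain ⟨X₂, K₂, V₂, b1, b2, b3, b4, b5⟩ := exists_ext h.toCCone
    (X := fun y => -(f y ^ 2 / 2) • y) (fun t ht y => by
      simp only [hf0 t ht y]; rw [smul_comm]) hU hC s2
  exact ⟨X₁, X₂, max K₁ K₂, Uf ∩ Uψ ∩ {0}ᶜ ∩ (V₁ ∩ V₂), a1, b1, a2.weaken (le_max_left _ _),
    b2.weaken (le_max_right _ _), hU.inter (a3.inter b3), fun y hy => ⟨hC hy, a4 hy, b4 hy⟩,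
    (s1.mono inter_subset_left).congr fun y hy => a5 hy.2.1,
    (s2.mono inter_subset_left).congr fun y hy => b5 hy.2.2, fun y hy => a5 hy.2.1, fun y hy => b5 hy.2.2⟩

variable {X₁ X₂ : E → E} {K : NNReal} {U : Set E} {y : E}

theorem Fld.cd₁ (F : Fld C ψ f X₁ X₂ K U) (hy : y ∈ U) : ContDiffAt ℝ ∞ X₁ y :=
  F.sm₁.contDiffAt (F.isOpen.mem_nhds hy)

theorem Fld.cd₂ (F : Fld C ψ f X₁ X₂ K U) (hy : y ∈ U) : ContDiffAt ℝ ∞ X₂ y :=
  F.sm₂.contDiffAt (F.isOpen.mem_nhds hy)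

theorem fderiv_normal_field {F ψ : E → ℝ} {X : E → E} (hF : DifferentiableAt ℝ F y) (hψ : ContDiffAt ℝ ∞ ψ y)
    (hX : X =ᶠ[𝓝 y] fun z => F z • gradient ψ z) (v : E) :
    fderiv ℝ X y v = F y • hess ψ y v + fderiv ℝ F y v • gradient ψ y := by
  have hd : HasFDerivAt (gradient ψ) (hess ψ y) y :=
    ((contDiffAt_gradient hψ).differentiableAt (by simp)).hasFDerivAt
  rw [hX.fderiv_eq, (hF.hasFDerivAt.fun_smul hd).fderiv]
  simp

theorem Fld.ev₁ (F : Fld C ψ f X₁ X₂ K U) (hy : y ∈ U) :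
    X₁ =ᶠ[𝓝 y] fun z => (f z * ‖z‖) • gradient ψ z :=
  Filter.mem_of_superset (F.isOpen.mem_nhds hy) F.eq₁

theorem Fld.fderiv₁ (F : Fld C ψ f X₁ X₂ K U) (h : SMC C ψ) (hf : Adm C f) (hy : y ∈ C) (h0 : y ≠ 0) :
    fderiv ℝ X₁ y = A1 (gradient ψ y) (‖y‖⁻¹ • y) (‖y‖ • gradient f y) (‖y‖ • hess ψ y) (f y) := by
  have hd : DifferentiableAt ℝ f y := (adm_contDiffAt hf hy h0).differentiableAt (by simp)
  ext v
  rw [fderiv_normal_field (hd.mul (hasFDerivAt_norm h0).differentiableAt) (smc_contDiffAt h hy h0)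
    (F.ev₁ (F.sub ⟨hy, h0⟩))]
  have := fderiv_mul_norm h0 hd v
  rw [show (f * fun z => ‖z‖) = fun z => f z * ‖z‖ from rfl, this]
  simp [A1, C1.rk_apply, smul_smul]

theorem Fld.fderiv₂ (F : Fld C ψ f X₁ X₂ K U) (hf : Adm C f) (hy : y ∈ C) (h0 : y ≠ 0) :
    fderiv ℝ X₂ y = A2' (‖y‖⁻¹ • y) (‖y‖ • gradient f y) (f y) := by
  have hd : DifferentiableAt ℝ f y := (adm_contDiffAt hf hy h0).differentiableAt (by simp)
  have he : X₂ =ᶠ[𝓝 y] fun z => -(f z ^ 2 / 2) • z :=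
    Filter.mem_of_superset (F.isOpen.mem_nhds (F.sub ⟨hy, h0⟩)) F.eq₂
  have h1 : HasFDerivAt (fun z => -(f z ^ 2 / 2)) (-(f y • fderiv ℝ f y)) y := by
    have := ((hd.hasFDerivAt.fun_mul hd.hasFDerivAt).mul_const (2⁻¹ : ℝ)).fun_neg
    refine (this.congr_of_eventuallyEq (Eventually.of_forall fun z => by ring)).congr_fderiv ?_
    ext v; simp; ring
  have hn := norm_ne_zero_iff.2 h0
  ext v
  rw [he.fderiv_eq, (h1.fun_smul (f := fun z => z) (hasFDerivAt_id y)).fderiv]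
  simp only [A2', add_apply, smul_apply, ContinuousLinearMap.id_apply, sub_apply, neg_apply,
    ContinuousLinearMap.smulRight_apply, one_apply_eq_self, C1.rk_apply, real_inner_smul_left,
    inner_gradient, smul_smul, smul_eq_mul, neg_smul]
  rw [sub_eq_add_neg]
  congr 3
  field_simp

theorem Fld.second₁ (F : Fld C ψ f X₁ X₂ K U) (h : SMC C ψ) (hf : Adm C f) (hy : y ∈ C) (h0 : y ≠ 0)
    (w v : E) : ⟪gradient ψ y, fderiv ℝ (fderiv ℝ X₁) y w v⟫ =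
      ⟪hess (fun z => f z * ‖z‖) y w, v⟫ - f y * ‖y‖ * ⟪hess ψ y w, hess ψ y v⟫ := by
  have hU := F.sub ⟨hy, h0⟩
  have hF : ContDiffAt ℝ ∞ (fun z => f z * ‖z‖) y := (adm_contDiffAt hf hy h0).mul (contDiffAt_norm ℝ h0)
  have hψ := smc_contDiffAt h hy h0
  have he : (fun z => ⟪gradient ψ z, fderiv ℝ X₁ z v⟫) =ᶠ[𝓝 y] fun z => fderiv ℝ (fun z => f z * ‖z‖) z v := by
    filter_upwards [F.isOpen.mem_nhds hU, smc_eventually h hy h0,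
      (hF.of_le one_le_inf).eventually (by simp)] with z hz h1 h2
    rw [fderiv_normal_field (h2.differentiableAt one_ne_zero) h1.1 (F.ev₁ hz), inner_add_right,
      inner_smul_right, inner_smul_right, h1.2.2, real_inner_self_eq_norm_sq, h1.2.1]
    ring
  have d1 : HasFDerivAt (gradient ψ) (hess ψ y) y :=
    ((contDiffAt_gradient hψ).differentiableAt (by simp)).hasFDerivAt
  have d2 : HasFDerivAt (fderiv ℝ X₁) (fderiv ℝ (fderiv ℝ X₁) y) y :=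
    (((F.cd₁ hU).fderiv_right (m := ∞) le_rfl).differentiableAt (by simp)).hasFDerivAt
  have d3 : HasFDerivAt (fderiv ℝ fun z => f z * ‖z‖) (fderiv ℝ (fderiv ℝ fun z => f z * ‖z‖) y) y :=
    ((hF.fderiv_right (m := ∞) le_rfl).differentiableAt (by simp)).hasFDerivAt
  have e := ((d1.inner ℝ (d2.clm_apply (hasFDerivAt_const v y))).congr_of_eventuallyEq he.symm).unique
    (d3.clm_apply (hasFDerivAt_const v y))
  have e2 := congrArg (fun T : E →L[ℝ] ℝ => T w) e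
  simp only [ContinuousLinearMap.comp_apply, ContinuousLinearMap.prod_apply, fderivInnerCLM_apply,
    ContinuousLinearMap.comp_zero, zero_add, ContinuousLinearMap.flip_apply] at e2
  rw [inner_hess hF, ← e2, fderiv_normal_field (hF.differentiableAt (by simp)) hψ (F.ev₁ hU),
    inner_add_right, inner_smul_right, inner_smul_right, real_inner_comm (gradient ψ y),
    smc_inner_hess h hy h0]
  ring

/-- the perturbation of the identity -/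
def Ph (X₁ X₂ : E → E) (s : ℝ) : E → E := fun y => y + (s • X₁ y + s ^ 2 • X₂ y)

theorem Fld.hom_Ph (F : Fld C ψ f X₁ X₂ K U) (s : ℝ) : Hom1 (Ph X₁ X₂ s) := fun t ht y => by
  simp only [Ph, F.hom₁ t ht y, F.hom₂ t ht y, smul_add]
  rw [smul_comm s t, smul_comm (s ^ 2) t]

theorem Fld.sm_Ph (F : Fld C ψ f X₁ X₂ K U) (s : ℝ) : ContDiffOn ℝ ∞ (Ph X₁ X₂ s) U :=
  contDiffOn_id.add ((F.sm₁.const_smul s).add (F.sm₂.const_smul (s ^ 2)))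

theorem Fld.fderiv_Ph (F : Fld C ψ f X₁ X₂ K U) (s : ℝ) (hy : y ∈ U) :
    fderiv ℝ (Ph X₁ X₂ s) y = 1 + s • fderiv ℝ X₁ y + s ^ 2 • fderiv ℝ X₂ y := by
  have d1 := ((F.cd₁ hy).differentiableAt (by simp)).hasFDerivAt
  have d2 := ((F.cd₂ hy).differentiableAt (by simp)).hasFDerivAt
  rw [add_assoc]
  exact ((hasFDerivAt_id y).add ((d1.const_smul s).add (d2.const_smul (s ^ 2)))).fderiv

theorem Fld.fderiv2_Ph (F : Fld C ψ f X₁ X₂ K U) (s : ℝ) (hy : y ∈ U) :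
    fderiv ℝ (fderiv ℝ (Ph X₁ X₂ s)) y =
      s • fderiv ℝ (fderiv ℝ X₁) y + s ^ 2 • fderiv ℝ (fderiv ℝ X₂) y := by
  have he : fderiv ℝ (Ph X₁ X₂ s) =ᶠ[𝓝 y] fun z => 1 + (s • fderiv ℝ X₁ z + s ^ 2 • fderiv ℝ X₂ z) := by
    filter_upwards [F.isOpen.mem_nhds hy] with z hz
    rw [F.fderiv_Ph s hz, add_assoc]
  have d1 := (((F.cd₁ hy).fderiv_right (m := ∞) le_rfl).differentiableAt (by simp)).hasFDerivAt
  have d2 := (((F.cd₂ hy).fderiv_right (m := ∞) le_rfl).differentiableAt (by simp)).hasFDerivAt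
  rw [he.fderiv_eq]
  exact (((d1.const_smul s).add (d2.const_smul (s ^ 2))).const_add _).fderiv

theorem Fld.lip (F : Fld C ψ f X₁ X₂ K U) {s : ℝ} (h0 : 0 ≤ s) (h1 : s ≤ 1) :
    LipschitzWith (2 * K * s.toNNReal) fun y => s • X₁ y + s ^ 2 • X₂ y := by
  refine LipschitzWith.of_dist_le_mul fun x y => ?_
  have a1 := F.lip₁.dist_le_mul x y
  have a2 := F.lip₂.dist_le_mul x y
  refine (dist_add_add_le _ _ _ _).trans ?_
  rw [dist_smul₀, dist_smul₀, Real.norm_of_nonneg h0, Real.norm_of_nonneg (sq_nonneg s)]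
  push_cast
  rw [Real.coe_toNNReal s h0]
  have a3 : s ^ 2 ≤ s := by nlinarith
  nlinarith [mul_le_mul_of_nonneg_left a1 h0, mul_le_mul a3 a2 dist_nonneg h0]

theorem Hom1.zero {X : E → E} (h : Hom1 X) : X 0 = 0 := by
  have := h 2 two_pos 0
  rw [smul_zero, two_smul] at this
  exact left_eq_add.1 this

theorem Fld.norm_Ph_sub (F : Fld C ψ f X₁ X₂ K U) {s : ℝ} (h0 : 0 ≤ s) (h1 : s ≤ 1) (y : E) :
    ‖Ph X₁ X₂ s y - y‖ ≤ 2 * K * s * ‖y‖ := by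
  have := (F.lip h0 h1).dist_le_mul y 0
  simpa [F.hom₁.zero, F.hom₂.zero, Ph, h0] using this

theorem Fld.le_norm_Ph (F : Fld C ψ f X₁ X₂ K U) (h : SMC C ψ) (s : ℝ) (hy : y ∈ C) (h0 : y ≠ 0) :
    ‖y‖ ≤ ‖Ph X₁ X₂ s y‖ := by
  have hU := F.sub ⟨hy, h0⟩
  have e : Ph X₁ X₂ s y = (1 - s ^ 2 * f y ^ 2 / 2) • y + (s * (f y * ‖y‖)) • gradient ψ y := by
    rw [Ph, F.eq₁ y hU, F.eq₂ y hU]; module
  rw [← sq_le_sq₀ (norm_nonneg _) (norm_nonneg _), e, norm_add_sq_real, norm_smul, norm_smul,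
    inner_smul_left, inner_smul_right, real_inner_comm, smc_inner_self h hy h0, smc_norm h hy h0,
    mul_pow, mul_one, Real.norm_eq_abs, Real.norm_eq_abs, sq_abs, sq_abs]
  nlinarith [sq_nonneg (s ^ 2 * f y ^ 2 * ‖y‖)]

theorem Fld.small (F : Fld C ψ f X₁ X₂ K U) (h : SMC C ψ) {s : ℝ} (h0 : 0 ≤ s) (h1 : s ≤ 1)
    (h2 : 2 * K * s < 1) : ∃ Φ : E ≃ₜ E, (Φ : E → E) = Ph X₁ X₂ s ∧ Pert C ψ Φ (NN Φ ψ) ∧
      ∀ y ∈ C, y ≠ 0 → 0 < ‖nv Φ ψ y‖⁻¹ ∧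
      (∀ v, ⟪NN Φ ψ y, fderiv ℝ Φ y v⟫ = ‖nv Φ ψ y‖⁻¹ * ⟪gradient ψ y, v⟫) ∧
      (∀ w, ⟪NN Φ ψ y, fderiv ℝ (NN Φ ψ) y w⟫ = 0) ∧
      ∀ v w, ⟪gradient ψ y, v⟫ = 0 → ⟪fderiv ℝ Φ y v, fderiv ℝ (NN Φ ψ) y w⟫ =
        ‖nv Φ ψ y‖⁻¹ * ⟪hess ψ y w, v⟫ - ⟪NN Φ ψ y, fderiv ℝ (fderiv ℝ Φ) y w v⟫ := by
  obtain ⟨⟨Φ, hΦ⟩, hu⟩ := exists_homeo (F.lip h0 h1)
    (by rw [← NNReal.coe_lt_coe]; push_cast; rwa [Real.coe_toNNReal s h0])
  have e : (Φ : E → E) = Ph X₁ X₂ s := funext hΦ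
  refine ⟨Φ, e, pert_NN h Φ (e ▸ F.hom_Ph s) F.isOpen F.sub (e ▸ F.sm_Ph s) fun y hy => ?_⟩
  rw [e]
  exact hu y ((((F.cd₁ hy).differentiableAt (by simp)).const_smul s).add
    (((F.cd₂ hy).differentiableAt (by simp)).const_smul (s ^ 2)))

end Crest.Agent.R246.P
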