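import Crest.Agent.R246.P.Calc

/-!
Row 246, block P: `∫ |A|² φ²` controls an affine function `φ`.
-/

set_option autoImplicit false
set_option linter.unusedSectionVars false

open MeasureTheory Metric Filter Topology Set Module
open scoped RealInnerProductSpace ENNReal ContDiff Real

noncomputable section

namespace Crest.Agent.R246.P

variable {E : Type} [NormedAddCommGroup E] [InnerProductSpace ℝ E] [FiniteDimensional ℝ E]

variable {C : Set E} {ψ : E → ℝ}

/-- If `g z = α ‖z‖ + ⟪b, z⟫` vanishes on `C` near `y`, then (`fderiv_tangent`) `α ẑ + b = λ(z) ν(z)` on `C` near `y`,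
`λ z = ⟪b, ν z⟫`; apply `fderiv_tangent` to `z ↦ α ẑ + b - λ(z) ν(z)`: `α (v - ⟪ŷ,v⟫ŷ)/‖y‖ = dλ(v) ν + λ H v` for `v ⊥ ν`.
Project by `prj ν` and take traces (`trc H = 0`, `H = P H P`): `α (d-1) = 0`.  Then `b = λ ν`, `λ H = 0`. -/
theorem aff_vanish {d : ℕ} (hE : finrank ℝ E = d + 1) (hd : 2 ≤ d) (h : SMC C ψ) {y : E} (hy : y ∈ C)
    (h0 : y ≠ 0) {α : ℝ} {b : E} (hz : ∀ᶠ z in 𝓝 y, z ∈ C → α + ⟪b, ‖z‖⁻¹ • z⟫ = 0) (hA : A2 ψ y ≠ 0) :
    α = 0 ∧ b = 0 := by

  have hne : ∀ᶠ z in 𝓝 y, z ≠ 0 := eventually_ne_nhds h0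
  have dg : ∀ z : E, z ≠ 0 → HasFDerivAt (fun z : E => α * ‖z‖ + ⟪b, z⟫)
      (innerSL ℝ (α • ‖z‖⁻¹ • z + b)) z := fun z hz => by
    have := ((hasFDerivAt_norm hz).const_mul α).fun_add (innerSL ℝ b).hasFDerivAt
    rw [map_add, map_smul]
    exact this
  have s1 : ∀ᶠ z in 𝓝 y, z ∈ C →
      α • z + ‖z‖ • b - (‖z‖ * ⟪gradient ψ z, b⟫) • gradient ψ z = 0 := by
    filter_upwards [(hz.and hne).eventually_nhds, hne] with z hz' z0 hzC
    have hn := norm_ne_zero_iff.2 z0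
    have h1 : prj (gradient ψ z) (α • ‖z‖⁻¹ • z + b) = 0 := by
      refine ext_inner_right ℝ fun v => ?_
      have := fderiv_tangent h hzC z0 (dg z z0).differentiableAt (hz'.mono fun x hx hxC => by
        have h2 := hx.1 hxC
        have hn := norm_ne_zero_iff.2 hx.2
        rw [real_inner_smul_right] at h2
        field_simp at h2
        linarith) (inner_prj (smc_norm h hzC z0) v)
      rw [(dg z z0).fderiv] at this
      rw [prj_symm, inner_zero_left]
      exact this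
    have h2 := congrArg (fun x => ‖z‖ • x) h1
    simp only [prj_apply, inner_add_right, real_inner_smul_right, smc_inner_self h hzC z0, mul_zero,
      zero_add, smul_zero, smul_sub, smul_add, smul_smul] at h2
    rwa [show ‖z‖ * (α * ‖z‖⁻¹) = α by field_simp] at h2
  have hn := norm_ne_zero_iff.2 h0
  have hH : HasFDerivAt (gradient ψ) (hess ψ y) y :=
    ((contDiffAt_gradient (smc_contDiffAt h hy h0)).differentiableAt (by simp)).hasFDerivAt
  have dF : DifferentiableAt ℝ (fun z => ‖z‖ * ⟪gradient ψ z, b⟫) y :=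
    (hasFDerivAt_norm h0).differentiableAt.fun_mul (hH.differentiableAt.inner ℝ (differentiableAt_const b))
  have dG := (((hasFDerivAt_id y).fun_const_smul α).fun_add ((hasFDerivAt_norm h0).smul_const b)).fun_sub
    (dF.hasFDerivAt.fun_smul hH)
  have s0 := s1.self_of_nhds hy
  have key : ∀ v u, ⟪gradient ψ y, v⟫ = 0 → ⟪gradient ψ y, u⟫ = 0 →
      ⟪u, (α • ContinuousLinearMap.id ℝ E - α • rk (‖y‖⁻¹ • y) (‖y‖⁻¹ • y) -
        (‖y‖ * ⟪gradient ψ y, b⟫) • hess ψ y) v⟫ = 0 := fun v u hv hu => by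
    have h1 := fderiv_tangent h hy h0 dG.differentiableAt s1 hv
    rw [dG.fderiv] at h1
    have h2 := congrArg (fun x => ⟪u, x⟫) h1
    have h3 := congrArg (fun x => ⟪u, x⟫) s0
    rw [real_inner_comm] at hu
    simp [inner_add_right, inner_sub_right, real_inner_smul_right, real_inner_smul_left, hu,
      C1.rk_apply] at h2 h3 ⊢
    have h4 : ⟪u, b⟫ = -(α * ⟪u, y⟫) / ‖y‖ := by field_simp; linarith
    rw [h4] at h2
    rw [← h2]
    field_simp
    ring
  have hν := smc_norm h hy h0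
  have ha : α = 0 := by
    have h1 : prj (gradient ψ y) * (α • ContinuousLinearMap.id ℝ E - α • rk (‖y‖⁻¹ • y) (‖y‖⁻¹ • y) -
        (‖y‖ * ⟪gradient ψ y, b⟫) • hess ψ y) * prj (gradient ψ y) = 0 := by
      ext v
      refine ext_inner_left ℝ fun u => ?_
      rw [mul_apply_eq_comp, mul_apply_eq_comp, ← prj_symm,
        key _ _ (inner_prj hν v) (inner_prj hν u)]
      simp
    have h2 := trc_prj_mul_prj hν (α • ContinuousLinearMap.id ℝ E - α • rk (‖y‖⁻¹ • y) (‖y‖⁻¹ • y) -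
        (‖y‖ * ⟪gradient ψ y, b⟫) • hess ψ y)
    have h3 : trc (hess ψ y) = 0 := h.minimal y hy h0
    have h4 : trc (0 : E →L[ℝ] E) = 0 := by simp [trc]
    have h5 : ⟪y, gradient ψ y⟫ = 0 := by rw [real_inner_comm]; exact smc_inner_self h hy h0
    rw [h1, h4, trc_sub, trc_sub, C1.trc_smul, C1.trc_smul, C1.trc_smul, C1.trc_id, C1.trc_rk, h3, hE] at h2
    have h8 := smc_hess_grad h hy h0
    generalize gradient ψ y = ν at h2 h5 hν h8
    simp [h8, C1.rk_apply, real_inner_smul_left, real_inner_smul_right, h5, hν,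
      norm_smul, hn] at h2
    have h6 : (2 : ℝ) ≤ d := by exact_mod_cast hd
    have h7 : α * ((d : ℝ) - 1) = 0 := by linarith
    exact (mul_eq_zero.1 h7).resolve_right (by linarith)
  refine ⟨ha, ?_⟩
  by_cases hl : ⟪gradient ψ y, b⟫ = 0
  · simpa [ha, hl, hn] using s0
  refine absurd ?_ hA
  have h1 : hess ψ y = 0 := by
    ext v
    have h2 := key _ _ (inner_prj hν v) (smc_inner_hess h hy h0 v)
    have h8 := smc_hess_grad h hy h0
    generalize gradient ψ y = ν at h2 hl h8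
    simpa [ha, hl, hn, prj_apply, h8, real_inner_smul_right] using h2
  simp [A2, h1, trc]

variable [MeasurableSpace E] [BorelSpace E]

/-- a nonnegative continuous function with zero integral vanishes on `C \ {0} ⊆ support`. -/
theorem eq_zero_of_integral {d : ℕ} (hS : StSMC E) (hE : finrank ℝ E = d + 1) (hd : 2 ≤ d) (h : SMC C ψ)
    {G : E → ℝ} (h0 : Hom0 G) (hc : ContinuousOn G (C \ {0})) (hpos : ∀ y ∈ C, y ≠ 0 → 0 ≤ G y)
    (hi : ∫ y, gk d 0 1 y * G y ∂ar d C ≤ 0) : ∀ y ∈ C, y ≠ 0 → G y = 0 := by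

  intro y hy y0
  have hd1 : 1 ≤ d := by omega
  have i1 := integrable_of_hom0 h.toCCone hd1 (smc_integrable hS hE hd h) h0 hc
  have hp : 0 ≤ᵐ[ar d C] fun y => gk d 0 1 y * G y := by
    filter_upwards [ae_mem h.toCCone hd1] with z hz
    exact mul_nonneg (C1.gk_pos d 0 one_pos z).le (hpos z hz.1 hz.2)
  have h1 := (integral_eq_zero_iff_of_nonneg_ae hp i1).1 (hi.antisymm (integral_nonneg_of_ae hp))
  by_contra hne
  have h2 : ∀ᶠ z in 𝓝 y, z ∈ C \ {0} → G z ≠ 0 :=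
    eventually_nhdsWithin_iff.1 ((hc y ⟨hy, y0⟩).eventually_ne hne)
  refine ((Measure.mem_support_iff_forall y).1 ((hS d hE hd C ψ h).2.2.2.1 ⟨hy, y0⟩) _ h2).ne' ?_
  rw [← compl_mem_ae_iff]
  filter_upwards [h1, ae_mem h.toCCone hd1] with z h3 hz h4
  exact h4 hz ((mul_eq_zero.1 h3).resolve_left (C1.gk_pos d 0 one_pos z).ne')

/-- `Th > 0` (`eq_zero_of_integral` with `G = 1`; `¬ Flat` gives a point of `C \ {0}`), then `StT2`. -/
theorem exists_A2_ne {d : ℕ} (hS : StSMC E) (h2 : StT2 E) (hE : finrank ℝ E = d + 1) (hd : 2 ≤ d)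
    (h : SMC C ψ) (hF : ¬ Flat C) : ∃ y ∈ C, y ≠ 0 ∧ A2 ψ y ≠ 0 := by

  by_contra! hc
  have h1 := h2 d hE hd C ψ h hF
  rw [integral_congr_ae (g := fun _ => 0) ((ae_mem h.toCCone (by omega : 1 ≤ d)).mono fun y hy => by
    simp only [hc y hy.1 hy.2, mul_zero]), integral_zero] at h1
  have h6 : (2 : ℝ) ≤ d := by exact_mod_cast hd
  have h3 : Th d C ≤ 0 := by nlinarith
  have h4 := eq_zero_of_integral hS hE hd h (G := fun _ => 1) (fun _ _ _ => rfl) continuousOn_const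
    (fun _ _ _ => zero_le_one) (by simpa [Th, th] using h3)
  have : Nontrivial E := Module.nontrivial_of_finrank_pos (R := ℝ) (by omega)
  obtain ⟨e, he⟩ := exists_norm_eq E zero_le_one
  refine hF ⟨e, he, fun y hy => ?_⟩
  by_cases y0 : y = 0
  · simp [y0]
  · exact absurd (h4 y hy y0) one_ne_zero

/-- the left side is continuous in `(α,b)` and positive on the compact set `|α| + ‖b‖ = 1`; scale. -/
theorem gain {d : ℕ} (hS : StSMC E) (h2 : StT2 E) (hE : finrank ℝ E = d + 1) (hd : 2 ≤ d)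
    (h : SMC C ψ) (hF : ¬ Flat C) : ∃ c : ℝ, 0 < c ∧ ∀ (α : ℝ) (b : E), c * min 1 (|α| + ‖b‖) ^ 2 ≤
      ∫ y, gk d 0 1 y * (A2 ψ y * min 1 (|α + ⟪b, ‖y‖⁻¹ • y⟫| / 2) ^ 2) ∂ar d C := by

  have hd1 : 1 ≤ d := by omega
  have hi := smc_integrable hS hE hd h
  have m0 : ∀ x : ℝ, 0 ≤ min 1 (|x| / 2) := fun x => le_min zero_le_one (by positivity)
  obtain ⟨G, hG⟩ : ∃ G : ℝ × E → E → ℝ,
      G = fun p y => A2 ψ y * min 1 (|p.1 + ⟪p.2, ‖y‖⁻¹ • y⟫| / 2) ^ 2 := ⟨_, rfl⟩
  have g0 : ∀ p, Hom0 (G p) := fun p t ht y => by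
    have := hom0_hat t ht y
    simp only at this
    simp only [hG, this, hom0_A2 h t ht y]
  have gc : ∀ p, ContinuousOn (G p) (C \ {0}) := fun p y hy => by
    have c1 := (contDiffAt_hat hy.2).continuousAt
    rw [hG]
    have c2 : Continuous fun x : E => min 1 (|p.1 + ⟪p.2, x⟫| / 2) ^ 2 := by fun_prop
    exact (continuousOn_A2 h y hy).mul (c2.continuousAt.comp c1).continuousWithinAt
  have gp : ∀ p, ∀ y ∈ C, y ≠ 0 → 0 ≤ G p y := fun p y hy y0 => by
    rw [hG]; exact mul_nonneg (A2_nonneg h hy y0) (sq_nonneg _)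
  have gi := fun p => integrable_of_hom0 h.toCCone hd1 hi (g0 p) (gc p)
  have hc : Continuous fun p => ∫ y, gk d 0 1 y * G p y ∂ar d C := by
    refine continuous_of_dominated (fun p => (gi p).1) (fun p => ?_)
      (integrable_of_hom0 h.toCCone hd1 hi (hom0_A2 h) (continuousOn_A2 h)) (ae_of_all _ fun y => ?_)
    · filter_upwards [ae_mem h.toCCone hd1] with y hy
      have k0 := (C1.gk_pos d 0 one_pos y).le
      rw [Real.norm_of_nonneg (mul_nonneg k0 (gp p y hy.1 hy.2)), hG]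
      exact mul_le_mul_of_nonneg_left (mul_le_of_le_one_right (A2_nonneg h hy.1 hy.2)
        (pow_le_one₀ (m0 _) (min_le_left _ _))) k0
    · rw [hG]; fun_prop
  have hK : IsCompact {p : ℝ × E | |p.1| + ‖p.2‖ = 1} := by
    refine Metric.isCompact_of_isClosed_isBounded (isClosed_eq (by fun_prop) continuous_const)
      ((isBounded_closedBall (x := 0) (r := 1)).subset fun p hp => ?_)
    have : |p.1| + ‖p.2‖ = 1 := hp
    rw [mem_closedBall_zero_iff, Prod.norm_def, Real.norm_eq_abs]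
    exact max_le (by linarith [norm_nonneg p.2]) (by linarith [abs_nonneg p.1])
  obtain ⟨y₀, hy₀, y0, hA⟩ := exists_A2_ne hS h2 hE hd h hF
  obtain ⟨c, hc0, hc⟩ := hK.exists_forall_le' hc.continuousOn (a := 0) fun p hp => by
    by_contra! hle
    have h1 := eq_zero_of_integral hS hE hd h (g0 p) (gc p) (gp p) hle
    have h3 : ∀ᶠ z in 𝓝 y₀, z ∈ C \ {0} → A2 ψ z ≠ 0 :=
      eventually_nhdsWithin_iff.1 ((continuousOn_A2 h y₀ ⟨hy₀, y0⟩).eventually_ne hA)
    obtain ⟨e1, e2⟩ := aff_vanish hE hd h hy₀ y0 (α := p.1) (b := p.2) (by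
      filter_upwards [h3, eventually_ne_nhds y0] with z h4 z0 hz
      have h5 := h1 z hz z0
      rw [hG] at h5
      have h6 := pow_eq_zero_iff two_ne_zero |>.1 ((mul_eq_zero.1 h5).resolve_left (h4 ⟨hz, z0⟩))
      rcases min_eq_iff.1 h6 with h7 | h7
      · exact absurd h7.1 one_ne_zero
      · simpa using h7.1) hA
    have : |p.1| + ‖p.2‖ = 1 := hp
    simp [e1, e2] at this
  refine ⟨c, hc0, fun α b => ?_⟩
  have e : ∀ y, A2 ψ y * min 1 (|α + ⟪b, ‖y‖⁻¹ • y⟫| / 2) ^ 2 = G (α, b) y := fun y => by rw [hG]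
  simp only [e]
  rcases (by positivity : 0 ≤ |α| + ‖b‖).eq_or_lt with hn | hn
  · rw [← hn, min_eq_right zero_le_one, sq, mul_zero, mul_zero]
    refine integral_nonneg_of_ae ?_
    filter_upwards [ae_mem h.toCCone hd1] with y hy
    exact mul_nonneg (C1.gk_pos d 0 one_pos y).le (gp _ y hy.1 hy.2)
  obtain ⟨n, hnn⟩ : ∃ n, n = |α| + ‖b‖ := ⟨_, rfl⟩
  rw [← hnn] at hn ⊢
  have h1 := hc (n⁻¹ * α, n⁻¹ • b) (by
    simp only [mem_ofPred_eq, abs_mul, norm_smul, Real.norm_eq_abs, abs_of_pos (inv_pos.2 hn)]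
    rw [← mul_add, ← hnn, inv_mul_cancel₀ hn.ne'])
  refine (mul_le_mul_of_nonneg_right h1 (sq_nonneg _)).trans ?_
  rw [← integral_mul_const]
  refine integral_mono_ae ((gi _).mul_const _) (gi _) ?_
  filter_upwards [ae_mem h.toCCone hd1] with y hy
  rw [mul_assoc, hG]
  refine mul_le_mul_of_nonneg_left ?_ (C1.gk_pos d 0 one_pos y).le
  simp only
  rw [mul_assoc, ← mul_pow, real_inner_smul_left, ← mul_add]
  refine mul_le_mul_of_nonneg_left (pow_le_pow_left₀ (mul_nonneg (m0 _) (le_min zero_le_one hn.le))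
    (le_min (mul_le_one₀ (min_le_left _ _) (le_min zero_le_one hn.le) (min_le_left _ _)) ?_) 2)
    (A2_nonneg h hy.1 hy.2)
  refine (mul_le_mul (min_le_right _ _) (min_le_right _ _) (le_min zero_le_one hn.le) (by positivity)).trans
    (le_of_eq ?_)
  rw [abs_mul, abs_of_pos (inv_pos.2 hn)]
  field_simp

end Crest.Agent.R246.P
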