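import Crest.Agent.R246.Defs

/-!
Row 246, block P: numerical inequalities.
-/

set_option autoImplicit false
set_option linter.unusedSectionVars false

open MeasureTheory Metric Filter Topology Set Module
open scoped RealInnerProductSpace ENNReal ContDiff Real

noncomputable section

namespace Crest.Agent.R246.P

variable {E : Type} [NormedAddCommGroup E] [InnerProductSpace ℝ E] [FiniteDimensional ℝ E]

/-- the ratio `r = q / cos s` of the boosted family.  `α = tan s √(1-|b|²)`, `ξ' = ⟪b, Φ̂⟫`, `ξ = ⟪b, ŷ⟫`,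
`β = ⟪b, N⟫`, `nb = ‖b‖`. -/
theorem num_ratio {W K s α nb ξ ξ' β r : ℝ} (hW : 0 ≤ W) (hK : 0 ≤ K) (hs : 0 ≤ s) (hnb : nb < 1)
    (hξ : |ξ| ≤ nb) (hξ' : |ξ'| ≤ nb) (hβ : |β| ≤ nb) (hd : |ξ' - ξ| ≤ K * s * nb)
    (hr : r * (1 - β) = α + ξ') (hrW : |r| ≤ W) :
    |r| ≤ (2 + 4 * W + K) * min 1 (|α| + nb) ∧
    |r - if |α| + nb ≤ 1 / 2 then α + ξ else 0| ≤
      (2 + 4 * W + K) * (min 1 (|α| + nb) ^ 2 + s * min 1 (|α| + nb)) ∧
    min 1 (|α + ξ| / 2) ^ 2 - (2 + 4 * W + K) * s * min 1 (|α| + nb) ^ 2 ≤ r ^ 2 := by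

  have hnb0 : 0 ≤ nb := (abs_nonneg _).trans hξ
  have hα := abs_nonneg α
  have hr0 := abs_nonneg r
  have hβ1 : 0 < 1 - β := by linarith [le_abs_self β]
  have hr' : |r| * (1 - β) = |α + ξ'| := by rw [← hr, abs_mul, abs_of_pos hβ1]
  have hz : nb ≤ min 1 (|α| + nb) := le_min hnb.le (by linarith)
  have hz0 : 0 ≤ min 1 (|α| + nb) := hnb0.trans hz
  have hKs : 0 ≤ K * s := mul_nonneg hK hs
  refine ⟨?_, ?_, ?_⟩
  · by_cases hc : |α| + nb ≤ 1 / 2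
    · rw [min_eq_right (by linarith)]
      have h1 := abs_add_le α ξ'
      have h2 : |r| ≤ 2 * (|α| + nb) := by nlinarith [le_abs_self β]
      nlinarith
    · have h1 : 1 / 2 ≤ min 1 (|α| + nb) := le_min (by norm_num) (not_le.1 hc).le
      nlinarith
  · split_ifs with hc
    · rw [min_eq_right (by linarith)] at hz ⊢
      have h1 := abs_add_le α ξ'
      have h2 : |r| ≤ 2 * (|α| + nb) := by nlinarith [le_abs_self β]
      have e : r - (α + ξ) = r * β + (ξ' - ξ) := by linarith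
      have h3 : |r * β| ≤ 2 * (|α| + nb) * (|α| + nb) := by
        rw [abs_mul]; exact mul_le_mul h2 (by linarith) (abs_nonneg _) (by positivity)
      have h4 := mul_le_mul_of_nonneg_left hz hKs
      rw [e]
      refine (abs_add_le _ _).trans ?_
      nlinarith [mul_nonneg hs (add_nonneg hα hnb0), sq_nonneg (|α| + nb),
        mul_nonneg hW (mul_nonneg hs (add_nonneg hα hnb0)), mul_nonneg hW (sq_nonneg (|α| + nb)),
        mul_nonneg hK (sq_nonneg (|α| + nb))]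
    · have h1 : 1 / 2 ≤ min 1 (|α| + nb) := le_min (by norm_num) (not_le.1 hc).le
      rw [sub_zero]
      generalize min 1 (|α| + nb) = ζ at h1 hz0
      have h2 : 1 / 4 ≤ ζ ^ 2 := by nlinarith
      nlinarith [mul_nonneg hs hz0, mul_nonneg hW (mul_nonneg hs hz0), mul_nonneg hK (mul_nonneg hs hz0),
        mul_le_mul_of_nonneg_left h2 hW, mul_nonneg hK (sq_nonneg ζ)]
  · have m1 : min 1 (|α + ξ| / 2) ≤ min 1 (|α| + nb) :=
      min_le_min le_rfl (by linarith [abs_add_le α ξ])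
    have m0 : 0 ≤ min 1 (|α + ξ| / 2) := le_min zero_le_one (by positivity)
    have m2 : min 1 (|α + ξ| / 2) ≤ |r| + K * s * min 1 (|α| + nb) / 2 := by
      have h1 : |α + ξ| ≤ |α + ξ'| + |ξ' - ξ| := by
        have := abs_sub (α + ξ') (ξ' - ξ)
        rwa [show α + ξ' - (ξ' - ξ) = α + ξ by ring] at this
      have h2 := min_le_right 1 (|α + ξ| / 2)
      nlinarith [neg_abs_le β, mul_le_mul_of_nonneg_left hz hKs]
    rw [← sq_abs r]
    generalize min 1 (|α + ξ| / 2) = m at m0 m1 m2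
    generalize min 1 (|α| + nb) = ζ at m1 m2 hz0
    have h3 : m ^ 2 - K * s * ζ * m ≤ |r| ^ 2 := by
      by_cases hc : K * s * ζ / 2 ≤ m
      · nlinarith [pow_le_pow_left₀ (by linarith : 0 ≤ m - K * s * ζ / 2)
          (by linarith : m - K * s * ζ / 2 ≤ |r|) 2, sq_nonneg (K * s * ζ)]
      · nlinarith [mul_nonneg hKs hz0, sq_nonneg |r|]
    nlinarith [mul_le_mul_of_nonneg_left m1 (mul_nonneg hKs hz0), mul_nonneg hs (sq_nonneg ζ),
      mul_nonneg hW (mul_nonneg hs (sq_nonneg ζ))]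

theorem num_exp {a g B : ℝ} (ha : |a| ≤ 1) (hB : 0 ≤ B) (hg0 : 0 ≤ g) (hg : g ≤ B ^ 2) :
    Real.exp (a - g / (2 * (1 + B))) ≤ 1 + a + a ^ 2 - 1 / (4 * (1 + B) ^ 2) * g := by
  have h1 : Real.exp a ≤ 1 + a + a ^ 2 := by
    linarith [Real.abs_exp_sub_one_sub_id_le ha, le_abs_self (Real.exp a - 1 - a)]
  obtain ⟨t, ht⟩ : ∃ t, t = g / (2 * (1 + B)) := ⟨_, rfl⟩
  have ht0 : 0 ≤ t := by rw [ht]; positivity
  have htB : t ≤ B := by rw [ht, div_le_iff₀ (by positivity)]; nlinarith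
  have h2 : Real.exp (-t) ≤ 1 - t / (1 + B) := by
    have h3 : Real.exp (-t) * (1 + t) ≤ 1 := by
      have := mul_le_mul_of_nonneg_left (Real.add_one_le_exp t) (Real.exp_pos (-t)).le
      rw [← Real.exp_add, neg_add_cancel, Real.exp_zero] at this
      linarith
    have h4 : t / (1 + B) * (1 + t) ≤ t := by
      rw [div_mul_eq_mul_div, div_le_iff₀ (by positivity)]; nlinarith
    refine le_of_mul_le_mul_right ?_ (by positivity : 0 < 1 + t)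
    nlinarith
  have h5 : 1 / (4 * (1 + B) ^ 2) * g = t / (1 + B) / 2 := by rw [ht]; field_simp; ring
  have h6 : 0 ≤ t / (1 + B) := by positivity
  rw [← ht, sub_eq_add_neg, Real.exp_add, h5]
  refine (mul_le_mul h1 h2 (Real.exp_pos _).le ((Real.exp_pos _).le.trans h1)).trans ?_
  nlinarith [mul_nonneg h6 (sq_nonneg (a + 1 / 2))]

/-- `B = K (K+1)`; `exp (a - g) ≤ (1 + a + a²)(1 - g/(1+G₀))` for `|a| ≤ 1`, `0 ≤ g ≤ G₀`, and `1 + a + a² ≥ 3/4`. -/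
theorem num_point {K : ℝ} (hK : 1 ≤ K) : ∃ c K' s₁ : ℝ, 0 < c ∧ c * K ≤ 1 / 4 ∧ 0 ≤ K' ∧ 0 < s₁ ∧
    ∀ s ζ r φ m J H S qq h A Jc : ℝ, 0 < s → s ≤ s₁ → 0 ≤ ζ → ζ ≤ 1 → |r| ≤ K * ζ →
      |r - φ| ≤ K * (ζ ^ 2 + s * ζ) → m ^ 2 - K * s * ζ ^ 2 ≤ r ^ 2 → |qq| ≤ K → |h| ≤ K → 0 ≤ A → A ≤ K →
      0 ≤ J → J ≤ 1 + s ^ 2 * qq / 2 + K * s ^ 3 → |H - s * h| ≤ K * s ^ 2 → 0 ≤ S → |S - A| ≤ K * s →
      (∀ B, 0 ≤ B → r ^ 2 * S ≤ B ^ 2 → Jc ≤ J * Real.exp (-r * H - r ^ 2 * S / (2 * (1 + B)))) →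
      Jc ≤ 1 + s ^ 2 * qq / 2 - s * (φ * h) - c * (A * m ^ 2) + K' * (s ^ 3 + s * ζ ^ 2 + s ^ 2 * ζ) := by

  have hK0 : 0 < K := by linarith
  obtain ⟨B, hB⟩ : ∃ B, B = K * (K + 1) := ⟨_, rfl⟩
  have hB0 : 0 < B := by rw [hB]; positivity
  have hKB : K ≤ B := by rw [hB]; nlinarith
  obtain ⟨c, hc⟩ : ∃ c, c = 1 / (4 * (1 + B) ^ 2) := ⟨_, rfl⟩
  have hc0 : 0 < c := by rw [hc]; positivity
  have hcB : c * (1 + B) ^ 2 = 1 / 4 := by rw [hc]; field_simp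
  have hcK : c * K ≤ 1 / 4 := by nlinarith [mul_pos hc0 hB0, mul_pos hc0 (mul_pos hB0 hB0)]
  have hc1 : c ≤ 1 := by nlinarith
  refine ⟨c, 20 * K ^ 4, 1 / (2 * K ^ 2), hc0, hcK, by positivity, by positivity, ?_⟩
  intro s ζ r φ m J H S qq h A Jc hs hs1 hζ0 hζ1 hr hφ hm hq hh hA0 hA hJ0 hJ hH hS0 hS hJc
  have hs2 : s * (2 * K ^ 2) ≤ 1 := (le_div_iff₀ (by positivity)).1 hs1
  have hs3 : s ≤ 1 := by nlinarith
  have hrK : |r| ≤ K := hr.trans (by nlinarith)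
  have hr2 : r ^ 2 ≤ K ^ 2 * ζ ^ 2 := by
    rw [← sq_abs, ← mul_pow]; exact pow_le_pow_left₀ (abs_nonneg _) hr 2
  have hζ2 : ζ ^ 2 ≤ ζ := by nlinarith
  have hS2 : S ≤ 2 * K := by nlinarith [le_abs_self (S - A)]
  have hH2 : |H| ≤ 2 * K * s := by
    have h1 := abs_add_le (H - s * h) (s * h)
    rw [sub_add_cancel, abs_mul, abs_of_pos hs] at h1
    nlinarith [mul_le_mul_of_nonneg_left hh hs.le, mul_le_mul_of_nonneg_left hs3 (mul_pos hK0 hs).le]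
  have ha : |-r * H| ≤ 2 * K ^ 2 * (s * ζ) := by
    rw [abs_mul, abs_neg]
    exact (mul_le_mul hr hH2 (abs_nonneg _) (by positivity)).trans (le_of_eq (by ring))
  have ha1 : |-r * H| ≤ 1 := ha.trans (by nlinarith [mul_le_mul_of_nonneg_left hζ1 hs.le])
  have hg0 : 0 ≤ r ^ 2 * S := by positivity
  have hg : r ^ 2 * S ≤ 2 * K ^ 3 * ζ := by
    calc _ ≤ K ^ 2 * ζ * (2 * K) := mul_le_mul (hr2.trans (by gcongr)) hS2 hS0 (by positivity)
      _ = _ := by ring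
  have hgB : r ^ 2 * S ≤ B ^ 2 := by
    refine hg.trans ?_
    rw [hB]
    nlinarith [mul_le_mul_of_nonneg_left hζ1 (by positivity : 0 ≤ 2 * K ^ 3), pow_pos hK0 2, pow_pos hK0 4]
  have e1 := num_exp ha1 hB0.le hg0 hgB
  rw [← hc] at e1
  obtain ⟨a, haa⟩ : ∃ a, a = -r * H := ⟨_, rfl⟩
  obtain ⟨g, hgg⟩ : ∃ g, g = r ^ 2 * S := ⟨_, rfl⟩
  have e2 := hJc B hB0.le hgB
  rw [← haa, ← hgg] at e1 e2
  rw [← haa] at ha ha1
  obtain ⟨j, hj⟩ : ∃ j, j = s ^ 2 * qq / 2 + K * s ^ 3 := ⟨_, rfl⟩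
  have hj1 : |j| ≤ 2 * K * s ^ 2 := by
    rw [hj]
    refine (abs_add_le _ _).trans ?_
    rw [abs_div, abs_mul, abs_of_nonneg (sq_nonneg s), abs_two, abs_of_nonneg (by positivity : 0 ≤ K * s ^ 3)]
    nlinarith [mul_le_mul_of_nonneg_left hq (sq_nonneg s),
      mul_le_mul_of_nonneg_left hs3 (by positivity : 0 ≤ K * s ^ 2)]
  have hKK : ∀ n : ℕ, K ^ n ≤ K ^ (n + 1) := fun n => pow_le_pow_right₀ hK (Nat.le_succ n)
  have k12 : K ≤ K ^ 2 := by simpa using hKK 1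
  have k23 : K ^ 2 ≤ K ^ 3 := hKK 2
  have k34 : K ^ 3 ≤ K ^ 4 := hKK 3
  have a2 : a ^ 2 ≤ 4 * K ^ 4 * (s ^ 2 * ζ) := by
    rw [← sq_abs]
    calc _ ≤ (2 * K ^ 2 * (s * ζ)) ^ 2 := pow_le_pow_left₀ (abs_nonneg _) ha 2
      _ = 4 * K ^ 4 * (s ^ 2 * ζ ^ 2) := by ring
      _ ≤ _ := by gcongr
  have hδ : |a + a ^ 2 - c * g| ≤ 6 * K ^ 3 * ζ := by
    have f1 : a ^ 2 ≤ |a| := by rw [← sq_abs]; nlinarith [abs_nonneg a]
    have f2 : |a| ≤ 2 * K ^ 3 * ζ := by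
      have f5 := mul_le_mul_of_nonneg_left (mul_le_mul_of_nonneg_right hs3 hζ0) (pow_pos hK0 2).le
      have f6 := mul_le_mul_of_nonneg_right k23 hζ0
      linarith
    have f3 : c * g ≤ 2 * K ^ 3 * ζ := by rw [hgg]; nlinarith
    have f4 : 0 ≤ c * g := by rw [hgg]; positivity
    rw [abs_le]
    constructor <;> nlinarith [neg_abs_le a, le_abs_self a, sq_nonneg a]
  have hjδ : j * (a + a ^ 2 - c * g) ≤ 12 * K ^ 4 * (s ^ 2 * ζ) := by
    refine (le_abs_self _).trans ?_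
    rw [abs_mul]
    exact (mul_le_mul hj1 hδ (abs_nonneg _) (by positivity)).trans (le_of_eq (by ring))
  have a1 : a ≤ -(s * (φ * h)) + K ^ 2 * (s * ζ ^ 2 + s ^ 2 * ζ) + K ^ 2 * (s ^ 2 * ζ) := by
    have f1 : |r * (H - s * h)| ≤ K ^ 2 * (s ^ 2 * ζ) := by
      rw [abs_mul]
      exact (mul_le_mul hr hH (abs_nonneg _) (by positivity)).trans (le_of_eq (by ring))
    have f2 : |(r - φ) * h| ≤ K ^ 2 * (ζ ^ 2 + s * ζ) := by
      rw [abs_mul]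
      exact (mul_le_mul hφ hh (abs_nonneg _) (by positivity)).trans (le_of_eq (by ring))
    have f3 := mul_le_mul_of_nonneg_left ((neg_le_abs _).trans f2) hs.le
    rw [haa]
    nlinarith [neg_le_abs (r * (H - s * h))]
  have g1 : A * m ^ 2 - 2 * K ^ 3 * (s * ζ ^ 2) ≤ g := by
    have f1 : r ^ 2 * (A - K * s) ≤ g := hgg ▸
      mul_le_mul_of_nonneg_left (by linarith [neg_abs_le (S - A)]) (sq_nonneg r)
    have f2 := mul_le_mul_of_nonneg_left hm hA0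
    have f3 := mul_le_mul_of_nonneg_right hA (by positivity : 0 ≤ K * s * ζ ^ 2)
    have f4 := mul_le_mul_of_nonneg_right hr2 (by positivity : 0 ≤ K * s)
    have f5 := mul_le_mul_of_nonneg_right k23 (by positivity : 0 ≤ s * ζ ^ 2)
    nlinarith
  have g2 : -(c * g) ≤ -(c * (A * m ^ 2)) + 2 * K ^ 3 * (s * ζ ^ 2) := by
    nlinarith [mul_le_mul_of_nonneg_left g1 hc0.le,
      mul_le_mul_of_nonneg_right hc1 (by positivity : 0 ≤ 2 * K ^ 3 * (s * ζ ^ 2))]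
  have e3 : Jc ≤ (1 + j) * (1 + a + a ^ 2 - c * g) :=
    e2.trans (mul_le_mul (by rw [hj]; linarith) e1 (Real.exp_pos _).le (hJ0.trans (by rw [hj]; linarith)))
  have p1 : 0 ≤ s ^ 3 := by positivity
  have p2 : 0 ≤ s * ζ ^ 2 := by positivity
  have p3 : 0 ≤ s ^ 2 * ζ := by positivity
  have k14 : K ≤ K ^ 4 := by linarith
  have k24 : K ^ 2 ≤ K ^ 4 := by linarith
  have q1 := mul_le_mul_of_nonneg_right k14 p1
  have q2 := mul_le_mul_of_nonneg_right k24 p2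
  have q3 := mul_le_mul_of_nonneg_right k24 p3
  have q4 := mul_le_mul_of_nonneg_right k34 p2
  have q5 := mul_nonneg (pow_pos hK0 4).le p1
  have q6 := mul_nonneg (pow_pos hK0 4).le p2
  have q7 := mul_nonneg (pow_pos hK0 4).le p3
  have e4 : (1 + j) * (1 + a + a ^ 2 - c * g) =
      1 + (s ^ 2 * qq / 2 + K * s ^ 3) + a + a ^ 2 - c * g + j * (a + a ^ 2 - c * g) := by
    rw [← hj]; ring
  linarith

theorem num_final {Q c K : ℝ} (hQ : Q < 0) (hc : 0 < c) (hK : 0 ≤ K) : ∃ s₂ : ℝ, 0 < s₂ ∧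
    ∀ s ζ : ℝ, 0 < s → s ≤ s₂ → 0 ≤ ζ →
      s ^ 2 * Q / 2 - c * ζ ^ 2 + K * (s ^ 3 + s * ζ ^ 2 + s ^ 2 * ζ) ≤ s ^ 2 * Q / 4 := by

  refine ⟨min (c / (2 * K + 1)) (-Q / (8 * (K + K ^ 2 / c) + 1)) ⊓ 1,
    lt_min (lt_min (by positivity) (div_pos (by linarith) (by positivity))) one_pos, ?_⟩
  intro s ζ hs hs2 hζ
  have h1 := (le_div_iff₀ (by positivity)).1 (hs2.trans (inf_le_left.trans (min_le_left _ _)))
  have h2 := (le_div_iff₀ (by positivity)).1 (hs2.trans (inf_le_left.trans (min_le_right _ _)))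
  have h3 : s ≤ 1 := hs2.trans inf_le_right
  obtain ⟨e, he⟩ : ∃ e, e = K ^ 2 / c := ⟨_, rfl⟩
  rw [← he] at h2
  have he0 : 0 ≤ e := by rw [he]; positivity
  have hec : e * c = K ^ 2 := by rw [he]; field_simp
  have h4 : K * (s * ζ ^ 2) ≤ c / 2 * ζ ^ 2 := by nlinarith [mul_nonneg hs.le (sq_nonneg ζ), sq_nonneg ζ]
  have h5 : K * (s ^ 2 * ζ) ≤ c / 2 * ζ ^ 2 + e * s ^ 4 := by
    refine le_of_mul_le_mul_left ?_ hc
    have : c * (e * s ^ 4) = K ^ 2 * s ^ 4 := by rw [← hec]; ring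
    nlinarith [sq_nonneg (c * ζ - K * s ^ 2), sq_nonneg (K * s ^ 2)]
  have h6 : e * s ^ 4 ≤ e * s ^ 3 := by
    refine mul_le_mul_of_nonneg_left ?_ he0
    exact pow_le_pow_of_le_one hs.le h3 (by norm_num)
  have h7 := mul_le_mul_of_nonneg_left h2 (sq_nonneg s)
  nlinarith [pow_pos hs 3, mul_nonneg he0 (pow_pos hs 3).le, mul_nonneg hK (pow_pos hs 3).le]

end Crest.Agent.R246.P
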