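import Crest.Agent.R246.P.Fam
import Crest.Agent.R246.P.Gain
import Crest.Agent.R246.P.Num

/-! Row 246, block P: final statements (see `R246/Blueprint.lean`). -/

set_option autoImplicit false
set_option linter.unusedSectionVars false

open MeasureTheory Metric Filter Topology Set Module
open scoped RealInnerProductSpace ENNReal ContDiff Real

noncomputable section

namespace Crest.Agent.R246

namespace P

variable {E : Type} [NormedAddCommGroup E] [InnerProductSpace ℝ E] [FiniteDimensional ℝ E]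
variable {C : Set E} {ψ f : E → ℝ}

theorem gk_anti (d : ℕ) {x y : E} (h : ‖y‖ ≤ ‖x‖) : gk d 0 1 x ≤ gk d 0 1 y := by
  unfold gk
  simp only [sub_zero]
  refine mul_le_mul_of_nonneg_left (Real.exp_le_exp.2 ?_) (by positivity)
  have := pow_le_pow_left₀ (norm_nonneg _) h 2
  linarith

theorem norm_hat {y : E} (hy : y ≠ 0) : ‖‖y‖⁻¹ • y‖ = 1 := by
  rw [norm_smul, norm_inv, norm_norm, inv_mul_cancel₀ (norm_ne_zero_iff.2 hy)]

theorem abs_inner_le_of_unit (b : E) {x : E} (hx : ‖x‖ = 1) : |⟪b, x⟫| ≤ ‖b‖ := by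
  simpa [hx] using abs_real_inner_le_norm b x

theorem continuousOn_aff (α : ℝ) (b : E) :
    ContinuousOn (fun y : E => α + ⟪b, ‖y‖⁻¹ • y⟫) (C \ {0}) := fun _ hy =>
  (continuousAt_const.add (continuousAt_const.inner (contDiffAt_hat hy.2).continuousAt)).continuousWithinAt

theorem hom0_aff (α : ℝ) (b : E) : Hom0 fun y : E => α + ⟪b, ‖y‖⁻¹ • y⟫ := fun t ht y => by
  have := hom0_hat t ht y
  simp only at this ⊢
  rw [this]

/-- the majorant of the Jacobian -/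
def Mf (d : ℕ) (ψ f : E → ℝ) (s c e α : ℝ) (b : E) (y : E) : ℝ :=
  1 + s ^ 2 * qd d ψ f f y / 2 -
    s * ((if |α| + ‖b‖ ≤ 1 / 2 then α + ⟪b, ‖y‖⁻¹ • y⟫ else 0) * hv ψ f y) -
    c * (A2 ψ y * min 1 (|α + ⟪b, ‖y‖⁻¹ • y⟫| / 2) ^ 2) + e

theorem Mf_nonneg {d : ℕ} {s c e α K : ℝ} {b y : E} (hy : y ≠ 0) (hs : 0 < s) (hsK : s * K ≤ 1 / 4)
    (hK : 1 ≤ K) (hc : 0 < c) (hcK : c * K ≤ 1 / 4) (he : 0 ≤ e) (hq : |qd d ψ f f y| ≤ K)
    (hh : |hv ψ f y| ≤ K) (hA : A2 ψ y ≤ K) : 0 ≤ Mf d ψ f s c e α b y := by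
  unfold Mf
  have hs1 : s ≤ 1 := by nlinarith
  have h1 : |(if |α| + ‖b‖ ≤ 1 / 2 then α + ⟪b, ‖y‖⁻¹ • y⟫ else 0)| ≤ 1 := by
    split_ifs with h
    · have := abs_inner_le_of_unit b (norm_hat hy)
      have := abs_add_le α ⟪b, ‖y‖⁻¹ • y⟫
      linarith
    · simp
  have h2 : (if |α| + ‖b‖ ≤ 1 / 2 then α + ⟪b, ‖y‖⁻¹ • y⟫ else 0) * hv ψ f y ≤ K := by
    refine (le_abs_self _).trans ?_
    rw [abs_mul]
    nlinarith [abs_nonneg (hv ψ f y)]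
  have h3 : min 1 (|α + ⟪b, ‖y‖⁻¹ • y⟫| / 2) ^ 2 ≤ 1 :=
    pow_le_one₀ (le_min zero_le_one (by positivity)) (min_le_left _ _)
  have h4 : A2 ψ y * min 1 (|α + ⟪b, ‖y‖⁻¹ • y⟫| / 2) ^ 2 ≤ K :=
    (mul_le_mul_of_nonneg_right hA (sq_nonneg _)).trans (by nlinarith)
  have h5 := neg_abs_le (qd d ψ f f y)
  have h6 : -(s * K) ≤ s ^ 2 * qd d ψ f f y := by
    nlinarith [mul_le_mul_of_nonneg_left (neg_le_neg hq |>.trans h5) (sq_nonneg s),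
      mul_le_mul_of_nonneg_right hs1 (by positivity : 0 ≤ s * K)]
  nlinarith [mul_le_mul_of_nonneg_left h2 hs.le, mul_le_mul_of_nonneg_left h4 hc.le]

variable [MeasurableSpace E] [BorelSpace E]

theorem integral_Mf {d : ℕ} (hS : StSMC E) (hI : StIBP E) (hE : finrank ℝ E = d + 1) (hd : 2 ≤ d)
    (h : SMC C ψ) (hf : Adm C f) (h1 : Qf d C ψ f (fun _ => 1) = 0)
    (h2 : ∀ a : E, Qf d C ψ f (fun y => ⟪a, ‖y‖⁻¹ • y⟫) = 0) (s c e α : ℝ) (b : E) :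
    Integrable (fun y => gk d 0 1 y * Mf d ψ f s c e α b y) (ar d C) ∧
    ∫ y, gk d 0 1 y * Mf d ψ f s c e α b y ∂ar d C = Th d C * (1 + e) + s ^ 2 * Qf d C ψ f f / 2 -
      c * ∫ y, gk d 0 1 y * (A2 ψ y * min 1 (|α + ⟪b, ‖y‖⁻¹ • y⟫| / 2) ^ 2) ∂ar d C := by
  have hi := smc_integrable hS hE hd h
  have hd1 : 1 ≤ d := by omega
  have i1 := integrable_of_hom0 h.toCCone hd1 hi (hom0_qd d h hf.1 hf.1) (continuousOn_qd d h hf hf)
  have i2 : Integrable (fun y => gk d 0 1 y * ((α + ⟪b, ‖y‖⁻¹ • y⟫) * hv ψ f y)) (ar d C) :=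
    integrable_of_hom0 h.toCCone hd1 hi
      (fun t ht y => by
        have h3 := hom0_aff α b t ht y
        simp only at h3 ⊢
        rw [h3, hom0_hv h hf.1 t ht y])
      ((continuousOn_aff α b).mul (continuousOn_hv h hf))
  have i3 : Integrable (fun y => gk d 0 1 y * (A2 ψ y * min 1 (|α + ⟪b, ‖y‖⁻¹ • y⟫| / 2) ^ 2)) (ar d C) :=
    integrable_of_hom0 h.toCCone hd1 hi
      (fun t ht y => by
        have h3 := hom0_aff α b t ht y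
        simp only at h3 ⊢
        rw [h3, hom0_A2 h t ht y])
      ((continuousOn_A2 h).mul ((continuousOn_const.inf ((continuousOn_aff α b).abs.div_const 2)).pow 2))
  obtain ⟨θ, hθ⟩ : ∃ θ : ℝ, ∀ y : E, (if |α| + ‖b‖ ≤ 1 / 2 then α + ⟪b, ‖y‖⁻¹ • y⟫ else 0) =
      θ * (α + ⟪b, ‖y‖⁻¹ • y⟫) := by
    by_cases hc : |α| + ‖b‖ ≤ 1 / 2
    · exact ⟨1, fun y => by rw [if_pos hc, one_mul]⟩
    · exact ⟨0, fun y => by rw [if_neg hc, zero_mul]⟩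
  have e1 : (fun y => gk d 0 1 y * Mf d ψ f s c e α b y) = fun y =>
      gk d 0 1 y * (1 + e) + s ^ 2 / 2 * (gk d 0 1 y * qd d ψ f f y) -
        s * θ * (gk d 0 1 y * ((α + ⟪b, ‖y‖⁻¹ • y⟫) * hv ψ f y)) -
        c * (gk d 0 1 y * (A2 ψ y * min 1 (|α + ⟪b, ‖y‖⁻¹ • y⟫| / 2) ^ 2)) := by
    funext y
    rw [Mf, hθ]; ring
  have j1 : Integrable (fun y => gk d 0 1 y * (1 + e) + s ^ 2 / 2 * (gk d 0 1 y * qd d ψ f f y)) (ar d C) :=
    (hi.mul_const (1 + e)).add (i1.const_mul (s ^ 2 / 2))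
  have j2 : Integrable (fun y => gk d 0 1 y * (1 + e) + s ^ 2 / 2 * (gk d 0 1 y * qd d ψ f f y) -
      s * θ * (gk d 0 1 y * ((α + ⟪b, ‖y‖⁻¹ • y⟫) * hv ψ f y))) (ar d C) := j1.sub (i2.const_mul (s * θ))
  rw [e1]
  refine ⟨j2.sub (i3.const_mul c), ?_⟩
  rw [integral_sub j2 (i3.const_mul c), integral_sub j1 (i2.const_mul _),
    integral_add (hi.mul_const _) (i1.const_mul _), integral_const_mul, integral_const_mul,
    integral_const_mul, integral_mul_const, integral_aff_hv hS hI hE hd h hf h1 h2]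
  have : ∫ y, gk d 0 1 y * qd d ψ f f y ∂ar d C = Qf d C ψ f f := rfl
  rw [this]
  unfold Th th
  ring

end P

open P in
theorem stPush (hG : Geo) (h2 : All fun E => StT2 E) (h1 : All fun E => StT1G E) : All fun E => StPush E := by
  intro E _ _ _ _ _ d hE hd C ψ h hF f hf hQ1 hQ2 hQ
  have hd2 : 2 ≤ d := by omega
  have hS := hG.smc E
  obtain ⟨-, κ, hκ, hκC⟩ := hG.rad E d hE hd2 C ψ h hF
  have hκ0 : 0 ≤ κ := by
    have : Nontrivial E := Module.nontrivial_of_finrank_pos (R := ℝ) (by omega)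
    obtain ⟨y, hy⟩ := exists_norm_eq E zero_le_one
    exact infDist_nonneg.trans (hκC y hy)
  obtain ⟨K₁, s₀, hK₁, hs₀, hfam⟩ := exists_family hE (by omega) h hf
  obtain ⟨c₁, hc₁, hgain⟩ := gain hS (h2 E) hE hd2 h hF
  obtain ⟨Kq, hKq0, hKq⟩ := bdd_of_hom0 h.toCCone (hom0_qd d h hf.1 hf.1) (continuousOn_qd d h hf hf)
  obtain ⟨Kh, hKh0, hKh⟩ := bdd_of_hom0 h.toCCone (hom0_hv h hf.1) (continuousOn_hv h hf)
  obtain ⟨KA, hKA0, hKA⟩ := bdd_of_hom0 h.toCCone (hom0_A2 h) (continuousOn_A2 h)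
  obtain ⟨κ', hκ'⟩ : ∃ κ', κ' = (1 + κ) / 2 := ⟨_, rfl⟩
  have hκ'0 : 0 < κ' := by linarith
  have hκ'1 : κ' < 1 := by linarith
  have hsq : 0 < √(1 - κ' ^ 2) := Real.sqrt_pos.2 (by nlinarith)
  obtain ⟨W, hW⟩ : ∃ W, W = κ' / √(1 - κ' ^ 2) := ⟨_, rfl⟩
  have hW0 : 0 ≤ W := by rw [hW]; positivity
  obtain ⟨K, hK⟩ : ∃ K, K = 2 + 4 * W + 2 * K₁ + Kq + Kh + KA := ⟨_, rfl⟩
  have hK1 : 1 ≤ K := by linarith
  obtain ⟨c, K', s₁, hc, hcK, hK', hs₁, hpt⟩ := num_point hK1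
  have hTh : 0 ≤ Th d C := C1.th_nonneg d _ 0 one_pos
  obtain ⟨s₂, hs₂, hfin⟩ := num_final hQ (mul_pos hc hc₁) (mul_nonneg hTh hK')
  obtain ⟨s, hs, hss₀, hss₁, hss₂, hsκ, hsK⟩ : ∃ s : ℝ, 0 < s ∧ s ≤ s₀ ∧ s ≤ s₁ ∧ s ≤ s₂ ∧
      4 * (K₁ * s) ≤ 1 - κ ∧ s * K ≤ 1 / 4 := by
    have e1 : ∀ᶠ s : ℝ in 𝓝[>] 0, 4 * (K₁ * s) ≤ 1 - κ ∧ s * K ≤ 1 / 4 := by
      refine nhdsWithin_le_nhds (Eventually.and ?_ ?_)
      · exact (by fun_prop : Continuous fun s : ℝ => 4 * (K₁ * s)).continuousAt.eventually_le_const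
          (by simpa using hκ)
      · exact (by fun_prop : Continuous fun s : ℝ => s * K).continuousAt.eventually_le_const (by simp)
    have e2 : ∀ a : ℝ, 0 < a → ∀ᶠ s : ℝ in 𝓝[>] 0, 0 < s ∧ s ≤ a := fun a ha => Ioc_mem_nhdsGT ha
    obtain ⟨s, ⟨a1, a2⟩, ⟨a3, a4⟩, ⟨-, a5⟩, -, a6⟩ :=
      (e1.and ((e2 _ hs₀).and ((e2 _ hs₁).and (e2 _ hs₂)))).exists
    exact ⟨s, a3, a4, a5, a6, a1, a2⟩
  obtain ⟨Φ, N, hP, hΦ, hloc⟩ := hfam s hs hss₀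
  refine ⟨Th d C + s ^ 2 * Qf d C ψ f f / 4, by nlinarith [sq_pos_of_pos hs], ?_⟩
  refine h1 E d hE hd2 C ψ h Φ N hP κ' _ hκ'1
    (fun y hy => hκ' ▸ infDist_image_le h.toCCone hκ (by positivity) hsκ hΦ hκC y hy) fun b hb t ht => ?_
  have hb1 : ‖b‖ < 1 := mem_ball_zero_iff.1 hb
  have hp : 0 < Real.cos t := Real.cos_pos_of_mem_Ioo ht
  obtain ⟨α, hα⟩ : ∃ α, α = Real.sin t * √(1 - ‖b‖ ^ 2) / Real.cos t := ⟨_, rfl⟩
  obtain ⟨ζ, hζ⟩ : ∃ ζ, ζ = min 1 (|α| + ‖b‖) := ⟨_, rfl⟩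
  have hζ0 : 0 ≤ ζ := hζ ▸ le_min zero_le_one (by positivity)
  have hζ1 : ζ ≤ 1 := hζ ▸ min_le_left _ _
  obtain ⟨e, he⟩ : ∃ e, e = K' * (s ^ 3 + s * ζ ^ 2 + s ^ 2 * ζ) := ⟨_, rfl⟩
  have he0 : 0 ≤ e := by rw [he]; positivity
  have hbq : ∀ y ∈ C, y ≠ 0 → |qd d ψ f f y| ≤ K := fun y hy h0 => (hKq y hy h0).trans (by linarith)
  have hbh : ∀ y ∈ C, y ≠ 0 → |hv ψ f y| ≤ K := fun y hy h0 => (hKh y hy h0).trans (by linarith)
  have hbA : ∀ y ∈ C, y ≠ 0 → A2 ψ y ≤ K := fun y hy h0 =>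
    (le_abs_self _).trans ((hKA y hy h0).trans (by linarith))
  refine ⟨fun y => ENNReal.ofReal (Mf d ψ f s c e α b y), fun y hy h0 hpsd hq => ?_, ?_⟩
  · refine ENNReal.ofReal_le_ofReal ?_
    obtain ⟨hn, J, H, S, hJ0, hJ, hH, hS0, hSA, hJac⟩ := hloc y hy h0
    have hΦ0 : Φ y ≠ 0 := norm_pos_iff.1 ((norm_pos_iff.2 h0).trans_le hn)
    obtain ⟨q, hqd⟩ : ∃ q, q = qf b t (‖Φ y‖⁻¹ • Φ y) (N y) := ⟨_, rfl⟩
    rw [← hqd] at hpsd hq ⊢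
    have hβ := abs_inner_le_of_unit b (hP.unit y hy h0)
    have hβ1 : 0 < 1 - ⟪b, N y⟫ := by linarith [le_abs_self ⟪b, N y⟫]
    have hr : q / Real.cos t * (1 - ⟪b, N y⟫) = α + ⟪b, ‖Φ y‖⁻¹ • Φ y⟫ := by
      rw [hqd, hα, qf]; field_simp
    have hrW : |q / Real.cos t| ≤ W := by
      rw [abs_div, abs_of_pos hp, hW, div_le_div_iff₀ hp hsq]; exact hq
    have hdx : |⟪b, ‖Φ y‖⁻¹ • Φ y⟫ - ⟪b, ‖y‖⁻¹ • y⟫| ≤ 2 * K₁ * s * ‖b‖ := by
      rw [← inner_sub_right]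
      refine (abs_real_inner_le_norm _ _).trans ?_
      rw [mul_comm]
      exact mul_le_mul_of_nonneg_right ((norm_hat_sub_le h0 (hΦ y) hΦ0).trans (le_of_eq (by ring)))
        (norm_nonneg _)
    obtain ⟨r1, r2, r3⟩ := num_ratio hW0 (by linarith : 0 ≤ 2 * K₁) hs.le hb1
      (abs_inner_le_of_unit b (norm_hat h0)) (abs_inner_le_of_unit b (norm_hat hΦ0)) hβ hdx hr hrW
    rw [← hζ] at r1 r2 r3
    have hKK : 2 + 4 * W + 2 * K₁ ≤ K := by linarith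
    have hK₁K : K₁ ≤ K := by linarith
    rw [Mf, he]
    refine hpt s ζ (q / Real.cos t) _ _ J H S _ _ _ _ hs hss₁ hζ0 hζ1
      (r1.trans (mul_le_mul_of_nonneg_right hKK hζ0))
      (r2.trans (mul_le_mul_of_nonneg_right hKK (by positivity))) (le_trans ?_ r3) (hbq y hy h0)
      (hbh y hy h0) (A2_nonneg h hy h0) (hbA y hy h0) hJ0 (hJ.trans ?_) (hH.trans ?_) hS0 (hSA.trans ?_)
      fun B hB hB' => hJac _ q B hp (Real.cos_le_one t) hpsd hB hB'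
    all_goals gcongr
  · obtain ⟨i1, i2⟩ := integral_Mf hS (hG.ibp E) hE hd2 h hf hQ1 hQ2 s c e α b
    have hae := ae_mem h.toCCone (d := d) (by omega)
    have hpos : ∀ y ∈ C, y ≠ 0 → 0 ≤ Mf d ψ f s c e α b y := fun y hy h0 =>
      Mf_nonneg h0 hs hsK hK1 hc hcK he0 (hbq y hy h0) (hbh y hy h0) (hbA y hy h0)
    calc _ ≤ ∫⁻ y, ENNReal.ofReal (gk d 0 1 y * Mf d ψ f s c e α b y) ∂ar d C := by
          refine lintegral_mono_ae (hae.mono fun y hy => ?_)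
          rw [ENNReal.ofReal_mul (C1.gk_pos d 0 one_pos y).le]
          exact mul_le_mul_left (ENNReal.ofReal_le_ofReal (gk_anti d (hloc y hy.1 hy.2).1)) _
      _ = ENNReal.ofReal (∫ y, gk d 0 1 y * Mf d ψ f s c e α b y ∂ar d C) :=
          (ofReal_integral_eq_lintegral_ofReal i1 (hae.mono fun y hy =>
            mul_nonneg (C1.gk_pos d 0 one_pos y).le (hpos y hy.1 hy.2))).symm
      _ ≤ _ := by
          refine ENNReal.ofReal_le_ofReal ?_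
          have g1 := mul_le_mul_of_nonneg_left (hgain α b) hc.le
          have g2 := hfin s ζ hs hss₂ hζ0
          rw [← hζ] at g1
          rw [i2, he]
          nlinarith

end Crest.Agent.R246
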